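import Mathlib
import Vale.Agent.Lib.P034.Chain6

/-!
Scores, caps and discounts for the stationary noise level step.
-/

namespace Vale.Agent.Lib.P034U
open Finset
open Vale.Agent.Lib.P034

variable {X : Type*} [Fintype X] [DecidableEq X]

/-- The score of `C` at the state `T`. -/
noncomputable def score (g : Finset X → ℝ) (b : ℝ) (C T : Finset X) : ℝ :=
  ∑ S ∈ univ.filter (fun S => C ⊆ S), g S * b ^ (S \ (T ∪ C)).card

open scoped Classical in
/-- The elements of `S \ T` lying in a subset of `S \ T` of score at least `th` at `T`. -/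
noncomputable def Hi (g : Finset X → ℝ) (b th : ℝ) (S T : Finset X) : Finset X :=
  (S \ T).filter (fun z => ∃ C, C ⊆ S \ T ∧ z ∈ C ∧ th ≤ score g b C T)

/-- `S` is uncapped at `T` at the threshold `k`. -/
def Unc (g : Finset X → ℝ) (b k : ℝ) (S T : Finset X) : Prop :=
  ∀ C, C ⊆ S \ T → C ≠ ∅ → score g b C T < k

open scoped Classical in
/-- The capped and discounted potential. -/
noncomputable def vv (g : Finset X → ℝ) (b k th : ℝ) (T : Finset X) : ℝ :=
  ∑ S ∈ univ.filter (fun S => Unc g b k S T),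
    g S * ((1 / 2) ^ (Hi g b th S T).card * b ^ (S \ T).card)

open scoped Classical in
/-- The main kernel weight. -/
noncomputable def hh (g : Finset X → ℝ) (r k th l : ℝ) (T B : Finset X) : ℝ :=
  ∑ S ∈ univ.filter (fun S => Unc g (2 * r) k S T ∧ Hi g (2 * r) th S T ⊆ B ∧
      B ⊆ Hi g (2 * r) l S T),
    g S * (r ^ (Hi g (2 * r) l S T \ B).card *
      (2 * r) ^ ((S \ T) \ Hi g (2 * r) l S T).card)

variable {g : Finset X → ℝ}

lemma score_nonneg (hg : ∀ S, 0 ≤ g S) {b : ℝ} (hb : 0 ≤ b) (C T : Finset X) :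
    0 ≤ score g b C T :=
  Finset.sum_nonneg (fun S _ => mul_nonneg (hg S) (pow_nonneg hb _))

lemma Hi_subset (b th : ℝ) (S T : Finset X) : Hi g b th S T ⊆ S \ T := by
  unfold Hi
  exact Finset.filter_subset _ _

lemma mem_Hi {b th : ℝ} {S T : Finset X} {z : X} :
    z ∈ Hi g b th S T ↔ ∃ C, C ⊆ S \ T ∧ z ∈ C ∧ th ≤ score g b C T := by
  unfold Hi
  rw [Finset.mem_filter]
  constructor
  · exact fun h => h.2
  · rintro ⟨C, hC, hz, hth⟩
    exact ⟨hC hz, C, hC, hz, hth⟩

lemma Hi_anti {b th l : ℝ} (hl : l ≤ th) (S T : Finset X) :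
    Hi g b th S T ⊆ Hi g b l S T := by
  intro z hz
  rw [mem_Hi] at hz ⊢
  obtain ⟨C, hC, hzC, hth⟩ := hz
  exact ⟨C, hC, hzC, hl.trans hth⟩

/-- The fibre computation behind (K1). -/
lemma fibre_sum {r : ℝ} {F E D : Finset X} (hFE : F ⊆ E) (hED : E ⊆ D) :
    ∑ B ∈ Finset.Icc F E, r ^ B.card * (r ^ (E \ B).card * (2 * r) ^ (D \ E).card) =
      (1 / 2) ^ F.card * (2 * r) ^ D.card := by
  have hterm : ∀ B ∈ Finset.Icc F E, r ^ B.card * (r ^ (E \ B).card * (2 * r) ^ (D \ E).card) =
      r ^ E.card * (2 * r) ^ (D \ E).card := by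
    intro B hB
    have hBE : B ⊆ E := (Finset.mem_Icc.mp hB).2
    rw [← mul_assoc, ← pow_add, Finset.card_sdiff_of_subset hBE]
    congr 2
    have := Finset.card_le_card hBE
    omega
  rw [Finset.sum_congr rfl hterm, Finset.sum_const, Finset.card_Icc_finset hFE, nsmul_eq_mul]
  have hc1 : F.card ≤ E.card := Finset.card_le_card hFE
  have hc2 : E.card ≤ D.card := Finset.card_le_card hED
  rw [Finset.card_sdiff_of_subset hED]
  obtain ⟨a, ha⟩ := Nat.exists_eq_add_of_le hc1
  obtain ⟨c, hc⟩ := Nat.exists_eq_add_of_le hc2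
  rw [hc, ha]
  have e1 : F.card + a - F.card = a := by omega
  have e2 : F.card + a + c - (F.card + a) = c := by omega
  rw [e1, e2, mul_pow, mul_pow, pow_add, pow_add, pow_add]
  push_cast
  have h2 : ((1 : ℝ) / 2) ^ F.card * 2 ^ F.card = 1 := by
    rw [← mul_pow]; norm_num
  rw [mul_assoc, mul_assoc] 
  calc _ = (2 : ℝ) ^ a * (r ^ F.card * r ^ a) * (2 ^ c * r ^ c) := by ring
    _ = (((1 : ℝ) / 2) ^ F.card * 2 ^ F.card) * ((2 : ℝ) ^ a * (r ^ F.card * r ^ a) * (2 ^ c * r ^ c)) := by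
        rw [h2, one_mul]
    _ = _ := by ring

/-- (K1). -/
theorem sum_hh {r : ℝ} {k th l : ℝ} (hl : l ≤ th) (T : Finset X) :
    ∑ B, r ^ B.card * hh g r k th l T B = vv g (2 * r) k th T := by
  classical
  unfold hh vv
  simp only [Finset.mul_sum]
  have hswap : (∑ B : Finset X, ∑ S ∈ univ.filter (fun S => Unc g (2 * r) k S T ∧
        Hi g (2 * r) th S T ⊆ B ∧ B ⊆ Hi g (2 * r) l S T),
        r ^ B.card * (g S * (r ^ (Hi g (2 * r) l S T \ B).card *
          (2 * r) ^ ((S \ T) \ Hi g (2 * r) l S T).card))) =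
      ∑ S ∈ univ.filter (fun S => Unc g (2 * r) k S T),
        ∑ B ∈ Finset.Icc (Hi g (2 * r) th S T) (Hi g (2 * r) l S T),
        r ^ B.card * (g S * (r ^ (Hi g (2 * r) l S T \ B).card *
          (2 * r) ^ ((S \ T) \ Hi g (2 * r) l S T).card)) := by
    rw [Finset.sum_comm' (s' := fun S => Finset.Icc (Hi g (2 * r) th S T) (Hi g (2 * r) l S T))
      (t' := univ.filter (fun S => Unc g (2 * r) k S T))]
    intro B S
    simp only [Finset.mem_univ, true_and, Finset.mem_filter, Finset.mem_Icc]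
    tauto
  convert hswap using 1
  refine Finset.sum_congr rfl (fun S _ => ?_)
  have h := fibre_sum (r := r) (Hi_anti (g := g) (b := 2 * r) hl S T) (Hi_subset (g := g) (2 * r) l S T)
  calc _ = g S * ∑ B ∈ Finset.Icc (Hi g (2 * r) th S T) (Hi g (2 * r) l S T),
          r ^ B.card * (r ^ (Hi g (2 * r) l S T \ B).card *
            (2 * r) ^ ((S \ T) \ Hi g (2 * r) l S T).card) := by
        rw [h]
    _ = _ := by
        rw [Finset.mul_sum]
        refine Finset.sum_congr rfl (fun B _ => ?_)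
        ring

/-- (K2). -/
lemma score_mono (hg : ∀ S, 0 ≤ g S) {b : ℝ} (hb0 : 0 ≤ b) (hb1 : b ≤ 1) {C T I : Finset X}
    (hTI : T ⊆ I) : score g b C T ≤ score g b (C \ I) I := by
  unfold score
  have hsub : univ.filter (fun S => C ⊆ S) ⊆ univ.filter (fun S => C \ I ⊆ S) := by
    intro S hS
    rw [Finset.mem_filter] at hS ⊢
    exact ⟨hS.1, Finset.sdiff_subset.trans hS.2⟩
  calc ∑ S ∈ univ.filter (fun S => C ⊆ S), g S * b ^ (S \ (T ∪ C)).card
      ≤ ∑ S ∈ univ.filter (fun S => C ⊆ S), g S * b ^ (S \ (I ∪ (C \ I))).card := by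
        refine Finset.sum_le_sum (fun S _ => mul_le_mul_of_nonneg_left ?_ (hg S))
        refine pow_le_pow_of_le_one hb0 hb1 (Finset.card_le_card ?_)
        intro z hz
        simp only [Finset.mem_sdiff, Finset.mem_union] at hz ⊢
        refine ⟨hz.1, fun h => hz.2 ?_⟩
        rcases h with h | h
        · exact Or.inl (hTI h)
        · by_cases hzI : z ∈ I
          · exact Or.inl hzI
          · exact Or.inr ⟨h, hzI⟩
    _ ≤ _ := Finset.sum_le_sum_of_subset_of_nonneg hsub
        (fun S _ _ => mul_nonneg (hg S) (pow_nonneg hb0 _))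

/-- (K3) for a nonempty set disjoint from the state, summed. -/
theorem batch_sum (hg : ∀ S, 0 ≤ g S) {r : ℝ} (hr : 0 ≤ r) (T : Finset X) :
    ∑ C ∈ univ.filter (fun C : Finset X => C ≠ ∅ ∧ Disjoint C T),
      r ^ C.card * score g (2 * r) C T ≤ phiA g (3 * r) T := by
  classical
  unfold score phiA
  simp only [Finset.mul_sum]
  rw [Finset.sum_comm' (s' := fun S => ((S \ T).powerset.filter (fun C => C ≠ ∅)))
    (t' := (univ : Finset (Finset X)))]
  · refine Finset.sum_le_sum (fun S _ => ?_)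
    have hle : ∑ C ∈ (S \ T).powerset.filter (fun C => C ≠ ∅),
        r ^ C.card * (g S * (2 * r) ^ (S \ (T ∪ C)).card) ≤
        ∑ C ∈ (S \ T).powerset, g S * (r ^ C.card * (2 * r) ^ ((S \ T) \ C).card) := by
      refine (Finset.sum_le_sum (fun C hC => ?_)).trans
        (Finset.sum_le_sum_of_subset_of_nonneg (Finset.filter_subset _ _)
          (fun C _ _ => mul_nonneg (hg S) (mul_nonneg (pow_nonneg hr _)
            (pow_nonneg (by positivity) _))))
      have e : S \ (T ∪ C) = (S \ T) \ C := by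
        ext z
        simp only [Finset.mem_sdiff, Finset.mem_union]
        tauto
      rw [e]
      apply le_of_eq
      ring
    refine hle.trans (le_of_eq ?_)
    rw [← Finset.mul_sum]
    congr 1
    have := Finset.sum_pow_mul_eq_add_pow r (2 * r) (S \ T)
    rw [show 3 * r = r + 2 * r by ring, ← this]
    refine Finset.sum_congr rfl (fun C hC => ?_)
    rw [Finset.card_sdiff_of_subset (Finset.mem_powerset.mp hC)]
  · intro C S
    simp only [Finset.mem_filter, Finset.mem_univ, true_and, Finset.mem_powerset, and_true]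
    constructor
    · rintro ⟨⟨hne, hd⟩, hCS⟩
      refine ⟨?_, hne⟩
      exact Finset.subset_sdiff.mpr ⟨hCS, hd⟩
    · rintro ⟨hC, hne⟩
      have := Finset.subset_sdiff.mp hC
      exact ⟨⟨hne, this.2⟩, this.1⟩

end Vale.Agent.Lib.P034U
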