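import Mathlib
import Vale.Agent.Lib.P034.Chain7
import Vale.Agent.Lib.P034U.Score

/-!
Assembly of the stationary noise level induction: the level statement, its base from the noise
decreasing chain, the top, the cover for one class and the main theorem, given the level step.
-/

namespace Vale.Agent.Lib.P034U
open Finset
open Vale.Agent.Lib.P034

variable {X : Type*} [Fintype X] [DecidableEq X] {g : Finset X → ℝ}

/-- The level statement: a family `C` of cost at most `c` such that the capped and discounted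
potential is at most `V` on the seed free sets of size at most `N` not containing a member of
`C`. -/
def LvlU (g : Finset X → ℝ) (bs r k th : ℝ) (N : ℕ) (V c : ℝ) : Prop :=
  ∃ C : Finset (Finset X), ∑ T ∈ C, r ^ T.card ≤ c ∧
    ∀ I, SeedFree g bs I → (∀ A ∈ C, ¬ A ⊆ I) → I.card ≤ N → vv g (2 * r) k th I ≤ V

/-- The potential is at most the polynomial at the same noise. -/
lemma vv_le_phiA (hg : ∀ S, 0 ≤ g S) {b k th : ℝ} (hb : 0 ≤ b) (T : Finset X) :
    vv g b k th T ≤ phiA g b T := by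
  classical
  unfold vv phiA
  refine le_trans (Finset.sum_le_sum (fun S _ => ?_))
    (Finset.sum_le_sum_of_subset_of_nonneg (Finset.filter_subset _ _)
      (fun S _ _ => mul_nonneg (hg S) (pow_nonneg hb _)))
  refine mul_le_mul_of_nonneg_left ?_ (hg S)
  have h1 : ((1 : ℝ) / 2) ^ (Hi g b th S T).card ≤ 1 :=
    pow_le_one₀ (by norm_num) (by norm_num)
  exact mul_le_of_le_one_left (pow_nonneg hb _) h1

/-- The sets inside `D` count with full weight in the potential at `D`. -/
lemma sum_powerset_le_vv (hg : ∀ S, 0 ≤ g S) {b k th : ℝ} (hb : 0 ≤ b) (D : Finset X) :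
    ∑ S ∈ D.powerset, g S ≤ vv g b k th D := by
  classical
  unfold vv
  have hsub : D.powerset ⊆ univ.filter (fun S => Unc g b k S D) := by
    intro S hS
    refine Finset.mem_filter.mpr ⟨Finset.mem_univ _, ?_⟩
    intro C hC hne
    have hSD : S \ D = ∅ := Finset.sdiff_eq_empty_iff_subset.mpr (Finset.mem_powerset.mp hS)
    rw [hSD] at hC
    exact absurd (Finset.subset_empty.mp hC) hne
  refine le_trans (Finset.sum_le_sum (fun S hS => ?_))
    (Finset.sum_le_sum_of_subset_of_nonneg hsub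
      (fun S _ _ => mul_nonneg (hg S) (mul_nonneg (by positivity) (pow_nonneg hb _))))
  have hSD : S \ D = ∅ := Finset.sdiff_eq_empty_iff_subset.mpr (Finset.mem_powerset.mp hS)
  have hHi : Hi g b th S D = ∅ := by
    have := Hi_subset (g := g) b th S D
    rw [hSD] at this
    exact Finset.subset_empty.mp this
  rw [hHi, hSD]
  simp

lemma two_mul_le_aI_three {r : ℝ} (hr0 : 0 ≤ r) (hr1 : r ≤ 1 / 8) : 2 * r ≤ aI r 3 := by
  unfold aI
  have h1 : r ^ 2 ≤ r * (1 / 8) := by nlinarith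
  have h2 : 0 ≤ r ^ 3 := pow_nonneg hr0 3
  have e : (1 - r) ^ 3 = 1 - 3 * r + 3 * r ^ 2 - r ^ 3 := by ring
  rw [e]
  linarith

/-- The base of the stationary level induction, from the noise decreasing chain. -/
theorem lvlU_base {n : ℕ} (hg : ∀ S, 0 ≤ g S) (hn : 0 < n)
    (hs : ∀ S : Finset X, S.card ≠ n → g S = 0) {r : ℝ} (hr0 : 0 < r) (hr1 : r ≤ 1 / 8)
    (hΦ : phiA g (aI r 6) ∅ ≤ (1 / 2) ^ (60 * n + 1)) (k th : ℝ) :
    LvlU g (aI r 6) r k th (Nn n 2) (vL n 2) (cL n 2) := by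
  have h := class_levels hg hn hs hr0 (by linarith) 5 hΦ 2 (by norm_num)
  obtain ⟨C, hC, hcov⟩ := h
  refine ⟨C, hC, fun I hSF hno hc => ?_⟩
  have h1 := hcov I hSF hno I (Finset.Subset.refl _) hc
  have h2 : (5 : ℕ) - 2 = 3 := rfl
  rw [h2] at h1
  have h3 : 2 * r ≤ aI r 3 := two_mul_le_aI_three hr0.le hr1
  have h20 : 0 ≤ 2 * r := by positivity
  exact (vv_le_phiA hg h20 I).trans ((phiA_mono hg h20 h3 I).trans h1)

lemma le_Nn {n : ℕ} (hn : 0 < n) (j : ℕ) : j ≤ Nn n j := by
  have h : ∀ j, n * 2 ^ (j + 6) ≤ Nat.sqrt (Nn n j) := Nn_sqrt_ge hn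
  have h1 : j < 2 ^ (j + 6) := lt_of_lt_of_le Nat.lt_two_pow_self
    (Nat.pow_le_pow_right (by norm_num) (by omega))
  have h2 : 2 ^ (j + 6) ≤ n * 2 ^ (j + 6) := Nat.le_mul_of_pos_left _ hn
  exact (h1.le.trans h2).trans ((h j).trans (Nat.sqrt_le_self _))

/-- The cover for one class, given the level step. -/
theorem class_cover_of_step (hg : ∀ S, 0 ≤ g S) {n : ℕ} (hn : 0 < n) {p r : ℝ} (hp0 : 0 < p)
    (hr0 : 0 < r) (hr1 : r ≤ 1 / 8) (hcost : ∑ S, g S * p ^ S.card ≤ 1 / 2)
    (hr : 7 * r = p / 2 ^ 60) (lam : ℕ → ℝ)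
    (hstep : ∀ j, 2 ≤ j →
      LvlU (levelPart g n) (aI r 6) r (lam j) (lam (j + 1)) (Nn n j) (vL n j) (cL n j) →
      LvlU (levelPart g n) (aI r 6) r (lam (j + 1)) (lam (j + 2)) (Nn n (j + 1))
        (vL n (j + 1)) (cL n (j + 1))) :
    ∃ C : Finset (Finset X), ∑ T ∈ C, r ^ T.card ≤ (1 / 2) ^ (n + 3) ∧
      ∀ D : Finset X, (∀ A ∈ C, ¬ A ⊆ D) → ∑ S ∈ D.powerset, levelPart g n S < wn n := by
  set g' : Finset X → ℝ := levelPart g n with hg'
  have hg'0 : ∀ S, 0 ≤ g' S := levelPart_nonneg hg n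
  have hs : ∀ S : Finset X, S.card ≠ n → g' S = 0 := levelPart_support n
  have hr1' : r ≤ 1 := by linarith
  set bs := aI r 6 with hbs
  have hbs0 : 0 ≤ bs := aI_nonneg hr0.le hr1' _
  have hbs1 : bs ≤ 6 * r := by
    have := aI_le_mul (r := r) hr1' 6
    push_cast at this
    exact this
  have hsum : r + bs ≤ p / 2 ^ 60 := by
    rw [← hr]
    linarith
  have hbsle : bs ≤ p / 2 ^ 60 := by linarith
  have hΦ : phiA g' bs ∅ ≤ (1 / 2) ^ (60 * n + 1) := by
    have := class_val hg n hp0 hcost hbs0 hbsle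
    unfold phiA
    simpa using this
  have hseed : ∑ A ∈ seedSets g' bs, r ^ A.card ≤ (1 / 2) ^ (60 * n + 1) :=
    (seedSets_cost hg'0 hbs0 hr0.le).trans
      (class_val hg n hp0 hcost (add_nonneg hr0.le hbs0) hsum)
  have hlvl : ∀ i, LvlU g' bs r (lam (2 + i)) (lam (2 + i + 1)) (Nn n (2 + i)) (vL n (2 + i))
      (cL n (2 + i)) := by
    intro i
    induction i with
    | zero => exact lvlU_base hg'0 hn hs hr0 hr1 hΦ _ _
    | succ i ih => exact hstep (2 + i) (by omega) ih
  obtain ⟨C, hC, hcov⟩ := hlvl (Fintype.card X)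
  have hwn := wn_pos hn
  refine ⟨C ∪ seedSets g' bs, ?_, ?_⟩
  · have h0 : 0 ≤ ∑ T ∈ C ∩ seedSets g' bs, r ^ T.card :=
      Finset.sum_nonneg (fun T _ => pow_nonneg hr0.le _)
    have h1 := Finset.sum_union_inter (s₁ := C) (s₂ := seedSets g' bs)
      (f := fun T => r ^ T.card)
    have h2 : cL n (2 + Fintype.card X) ≤ (1 / 2) ^ (n + 4) := by
      unfold cL
      have : (0 : ℝ) < (1 / 2) ^ (2 + Fintype.card X + 1) := by positivity
      have h3 : (0 : ℝ) < (1 / 2) ^ (n + 4) := by positivity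
      nlinarith
    have h3 : ((1 : ℝ) / 2) ^ (60 * n + 1) ≤ (1 / 2) ^ (n + 4) :=
      pow_le_pow_of_le_one (by norm_num) (by norm_num) (by omega)
    have h4 : ((1 : ℝ) / 2) ^ (n + 3) = (1 / 2) ^ (n + 4) + (1 / 2) ^ (n + 4) := by
      rw [pow_succ _ (n + 3)]
      ring
    rw [h4]
    linarith
  · intro D hno
    have hSF : SeedFree g' bs D := seedFree_of_no_seed
      (fun A hA => hno A (Finset.mem_union_right _ hA))
    have hD : D.card ≤ Nn n (2 + Fintype.card X) :=
      (Finset.card_le_univ D).trans ((by omega : Fintype.card X ≤ 2 + Fintype.card X).trans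
        (le_Nn hn _))
    have h1 := hcov D hSF (fun A hA => hno A (Finset.mem_union_left _ hA)) hD
    have h2 := sum_powerset_le_vv (g := g') (b := 2 * r) (k := lam (2 + Fintype.card X))
      (th := lam (2 + Fintype.card X + 1)) hg'0 (by positivity) D
    refine lt_of_le_of_lt (h2.trans h1) ?_
    unfold vL
    have : (0 : ℝ) < (1 / 2) ^ (2 + Fintype.card X + 1) := by positivity
    nlinarith

/-- The main theorem, given the level step for all classes. -/
theorem universal_small_of_step (F : Finset (Finset X)) (g : Finset X → ℝ) (p : ℝ)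
    (hg : ∀ S, 0 ≤ g S) (hp0 : 0 < p) (hp1 : p ≤ 1) (hcost : ∑ S, g S * p ^ S.card ≤ 1 / 2)
    (hcov : ∀ H ∈ F, ∃ D, D ⊆ H ∧ 1 ≤ ∑ S ∈ D.powerset, g S) (lam : ℕ → ℕ → ℝ)
    (hstep : ∀ n, 0 < n → ∀ j, 2 ≤ j →
      LvlU (levelPart g n) (aI (p / (2 ^ 60 * 7)) 6) (p / (2 ^ 60 * 7)) (lam n j) (lam n (j + 1))
        (Nn n j) (vL n j) (cL n j) →
      LvlU (levelPart g n) (aI (p / (2 ^ 60 * 7)) 6) (p / (2 ^ 60 * 7)) (lam n (j + 1))
        (lam n (j + 2)) (Nn n (j + 1)) (vL n (j + 1)) (cL n (j + 1))) :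
    IsSmall F (p / (2 ^ 60 * 7)) := by
  set r : ℝ := p / (2 ^ 60 * 7) with hrdef
  have hr0 : 0 < r := by positivity
  have hr1 : r ≤ 1 / 8 := by
    rw [hrdef, div_le_iff₀ (by norm_num)]
    norm_num
    linarith
  have hr : 7 * r = p / 2 ^ 60 := by
    rw [hrdef]
    field_simp
  have hcl := fun k : ℕ => class_cover_of_step hg (Nat.succ_pos k) hp0 hr0 hr1 hcost hr
    (lam (k + 1)) (hstep (k + 1) (Nat.succ_pos k))
  choose C hC hCcov using hcl
  set m := Fintype.card X with hm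
  refine ⟨(Finset.range m).biUnion C, ?_, ?_⟩
  · intro H hH
    obtain ⟨D, hDH, hD1⟩ := hcov H hH
    by_contra hno
    push Not at hno
    have hlt : ∀ k ∈ Finset.range D.card,
        ∑ S ∈ D.powerset, levelPart g (k + 1) S ≤ wn (k + 1) := by
      intro k hk
      have hkm : k < m := lt_of_lt_of_le (Finset.mem_range.mp hk) (Finset.card_le_univ D)
      refine (hCcov k D ?_).le
      intro A hA hAD
      exact hno A (Finset.mem_biUnion.mpr ⟨k, Finset.mem_range.mpr hkm, hA⟩) (hAD.trans hDH)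
    have h0 : ∑ S ∈ D.powerset, levelPart g 0 S ≤ 1 / 2 := by
      have hS : ∑ S ∈ D.powerset, levelPart g 0 S = g ∅ := by
        rw [Finset.sum_eq_single (∅ : Finset X)]
        · simp [levelPart]
        · intro S _ hS
          exact levelPart_support 0 S (fun h => hS (Finset.card_eq_zero.mp h))
        · intro h
          exact absurd (Finset.empty_mem_powerset D) h
      rw [hS]
      have := Finset.single_le_sum (f := fun S => g S * p ^ S.card)
        (fun S _ => mul_nonneg (hg S) (pow_nonneg hp0.le _)) (Finset.mem_univ (∅ : Finset X))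
      simp only [Finset.card_empty, pow_zero, mul_one] at this
      linarith
    have h1 := sum_powerset_split (g := g) D
    have h2 := Finset.sum_le_sum hlt
    have h3 := sum_wn_lt D.card
    linarith
  · unfold coverCost
    calc ∑ S ∈ (Finset.range m).biUnion C, r ^ S.card
        ≤ ∑ k ∈ Finset.range m, ∑ S ∈ C k, r ^ S.card :=
          sum_biUnion_le_sum _ _ _ (fun S => pow_nonneg hr0.le _)
      _ ≤ ∑ k ∈ Finset.range m, ((1 : ℝ) / 2) ^ (k + 1 + 3) :=
          Finset.sum_le_sum (fun k _ => hC k)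
      _ ≤ 1 / 8 := sum_geom_le m
      _ ≤ 1 / 2 := by norm_num

end Vale.Agent.Lib.P034U
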