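import Mathlib
import Vale.Agent.Lib.P034.Chain6

/-!
The crude bounds on the polynomial `phiA`: a polynomial bound on seed free sets of the class of
`n`-sets, one noise step from it (never iterated), and the self cover of the target sets.
-/

namespace Vale.Agent.Lib.P034U
open Finset Vale.Agent.Lib.P034

variable {X : Type*} [Fintype X] [DecidableEq X] {g : Finset X → ℝ}

omit [Fintype X] in
/-- The number of subsets of size at most `n`. -/
lemma card_filter_card_le_pow (T : Finset X) (n : ℕ) :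
    (T.powerset.filter (fun A => A.card ≤ n)).card ≤ (T.card + 1) ^ n := by
  induction n with
  | zero =>
    have : T.powerset.filter (fun A => A.card ≤ 0) ⊆ {∅} := by
      intro A hA
      have h := (Finset.mem_filter.mp hA).2
      simpa using h
    simpa using Finset.card_le_card this
  | succ n ih =>
    have hsub : T.powerset.filter (fun A => A.card ≤ n + 1) ⊆
        T.powerset.filter (fun A => A.card ≤ n) ∪ T.powersetCard (n + 1) := by
      intro A hA
      obtain ⟨h1, h2⟩ := Finset.mem_filter.mp hA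
      rcases Nat.lt_or_ge n A.card with h3 | h3
      · refine Finset.mem_union_right _ (Finset.mem_powersetCard.mpr
          ⟨Finset.mem_powerset.mp h1, by omega⟩)
      · exact Finset.mem_union_left _ (Finset.mem_filter.mpr ⟨h1, h3⟩)
    have h1 := Finset.card_le_card hsub
    have h2 := Finset.card_union_le (T.powerset.filter (fun A => A.card ≤ n))
      (T.powersetCard (n + 1))
    rw [Finset.card_powersetCard] at h2
    have h3 : T.card.choose (n + 1) ≤ T.card * (T.card + 1) ^ n := by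
      refine (Nat.choose_le_pow _ _).trans ?_
      rw [pow_succ', ]
      exact Nat.mul_le_mul_left _ (Nat.pow_le_pow_left (Nat.le_succ _) n)
    rw [pow_succ']
    nlinarith

/-- On seed free sets the polynomial of a class of `n`-sets is at most `(|T| + 1) ^ n`. -/
theorem seedFree_phi_le_poly {n : ℕ} (hg : ∀ S, 0 ≤ g S)
    (hs : ∀ S : Finset X, S.card ≠ n → g S = 0) {b bs : ℝ} (hb0 : 0 ≤ b) (hb : b ≤ bs)
    (hΦ : phiA g bs ∅ ≤ 1) {T : Finset X} (hT : SeedFree g bs T) :
    phiA g b T ≤ ((T.card : ℝ) + 1) ^ n := by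
  have hbs0 : 0 ≤ bs := hb0.trans hb
  have hfib : phiA g b T = ∑ A ∈ T.powerset,
      ∑ S ∈ univ.filter (fun S => S ∩ T = A), g S * b ^ (S \ T).card := by
    unfold phiA
    rw [Finset.sum_fiberwise_of_maps_to]
    intro S _
    exact Finset.mem_powerset.mpr Finset.inter_subset_right
  rw [hfib]
  have hone : ∀ A ∈ T.powerset,
      ∑ S ∈ univ.filter (fun S => S ∩ T = A), g S * b ^ (S \ T).card ≤
        if A.card ≤ n then 1 else 0 := by
    intro A hA
    have hAT : A ⊆ T := Finset.mem_powerset.mp hA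
    by_cases hcard : A.card ≤ n
    · rw [if_pos hcard]
      by_cases hne : A = ∅
      · subst hne
        calc ∑ S ∈ univ.filter (fun S => S ∩ T = ∅), g S * b ^ (S \ T).card
            ≤ ∑ S, g S * bs ^ (S \ (∅ : Finset X)).card := by
              refine (Finset.sum_le_sum (fun S hS => ?_)).trans
                (Finset.sum_le_sum_of_subset_of_nonneg (Finset.subset_univ _)
                  (fun S _ _ => mul_nonneg (hg S) (pow_nonneg hbs0 _)))
              have hSe : S ∩ T = ∅ := (Finset.mem_filter.mp hS).2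
              have hST : S \ T = S \ ∅ := by
                rw [Finset.sdiff_empty]
                exact Finset.sdiff_eq_self_of_disjoint (Finset.disjoint_iff_inter_eq_empty.mpr hSe)
              rw [hST]
              exact mul_le_mul_of_nonneg_left (pow_le_pow_left₀ hb0 hb _) (hg S)
          _ ≤ 1 := hΦ
      · have hlt := hT A hAT hne
        refine le_trans ?_ hlt.le
        unfold seedSum
        calc ∑ S ∈ univ.filter (fun S => S ∩ T = A), g S * b ^ (S \ T).card
            ≤ ∑ S ∈ univ.filter (fun S => S ∩ T = A), g S * bs ^ (S \ A).card := by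
              refine Finset.sum_le_sum (fun S hS => ?_)
              have hSe : S ∩ T = A := (Finset.mem_filter.mp hS).2
              have hST : S \ T = S \ A := by
                rw [← hSe]
                ext x
                simp only [Finset.mem_sdiff, Finset.mem_inter]
                tauto
              rw [hST]
              exact mul_le_mul_of_nonneg_left (pow_le_pow_left₀ hb0 hb _) (hg S)
          _ ≤ ∑ S ∈ univ.filter (fun S => A ⊆ S), g S * bs ^ (S \ A).card := by
              refine Finset.sum_le_sum_of_subset_of_nonneg ?_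
                (fun S _ _ => mul_nonneg (hg S) (pow_nonneg hbs0 _))
              intro S hS
              have hSe : S ∩ T = A := (Finset.mem_filter.mp hS).2
              refine Finset.mem_filter.mpr ⟨Finset.mem_univ _, ?_⟩
              rw [← hSe]
              exact Finset.inter_subset_left
    · rw [if_neg hcard]
      refine le_of_eq (Finset.sum_eq_zero (fun S hS => ?_))
      have hSe : S ∩ T = A := (Finset.mem_filter.mp hS).2
      have h1 : A.card ≤ S.card := by
        rw [← hSe]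
        exact Finset.card_le_card Finset.inter_subset_left
      rw [hs S (by omega), zero_mul]
  calc ∑ A ∈ T.powerset, ∑ S ∈ univ.filter (fun S => S ∩ T = A), g S * b ^ (S \ T).card
      ≤ ∑ A ∈ T.powerset, (if A.card ≤ n then (1 : ℝ) else 0) := Finset.sum_le_sum hone
    _ = ((T.powerset.filter (fun A => A.card ≤ n)).card : ℝ) := by
        rw [Finset.sum_ite, Finset.sum_const_zero, add_zero, Finset.sum_const, nsmul_eq_mul,
          mul_one]
    _ ≤ ((T.card : ℝ) + 1) ^ n := by
        have := card_filter_card_le_pow T n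
        exact_mod_cast this

/-- The crude potential: one noise step from the polynomial bound. -/
theorem crude_potential {n : ℕ} (hg : ∀ S, 0 ≤ g S) (hn : 0 < n)
    (hs : ∀ S : Finset X, S.card ≠ n → g S = 0) {r bs : ℝ} (hr0 : 0 < r) (hr1 : r ≤ 1)
    (hbs : aI r 5 ≤ bs) (hΦ : phiA g bs ∅ ≤ 1) (N' t B : ℕ)
    (hK : 2 ^ B * (2 * N' ^ 2 + B) + 1 ≤ 2 ^ (t / n + 1)) :
    ∃ C : Finset (Finset X), ∑ T ∈ C, r ^ T.card ≤ 2 * (1 / 2) ^ B ∧
      ∀ I, SeedFree g bs I → I.card ≤ N' → (∀ T ∈ C, ¬ T ⊆ I) →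
        phiA g (aI r 4) I ≤ 2 * ((t : ℝ) + 1) ^ n + 1 := by
  have ha0 := aI_nonneg hr0.le hr1 4
  have ha1 := aI_le_one hr1 4
  have hsucc : aI r 4 + (1 - aI r 4) * r = aI r 5 := aI_succ r 4
  have hb0 : 0 ≤ aI r 5 := aI_nonneg hr0.le hr1 5
  have hbs0 : 0 ≤ bs := hb0.trans hbs
  set v : ℝ := ((t : ℝ) + 1) ^ n with hv
  have ht1 : (1 : ℝ) ≤ (t : ℝ) + 1 := by
    have : (0 : ℝ) ≤ t := Nat.cast_nonneg t
    linarith
  have hv1 : 1 ≤ v := one_le_pow₀ ht1
  have hvpos : 0 < v := by linarith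
  have hw0 : phiA g (aI r 4) ∅ < 2 * v := by
    have h1 : phiA g (aI r 4) ∅ ≤ phiA g bs ∅ :=
      phiA_mono hg ha0 ((aI_mono hr0.le hr1 (by norm_num : 4 ≤ 5)).trans hbs) ∅
    linarith
  have hγ : (0 : ℝ) < (1 / 2) ^ N' := by positivity
  obtain ⟨C, hC, hcov⟩ := class_step hg hn hs ha0 ha1 hr0 (by rw [hsucc]; exact hbs) hΦ t N'
    (v := v) (w := 2 * v) (lam := (1 / 2) ^ B) (γ := (1 / 2) ^ N') hvpos hγ (by positivity) hw0
  refine ⟨C, ?_, ?_⟩
  · refine hC.trans ?_
    have hratio : (2 * v) / v = 2 := by field_simp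
    rw [hratio]
    have e1 : ((2 : ℝ) ^ N' / (1 / 2) ^ N') ^ N' = 2 ^ (2 * N' ^ 2) := by
      rw [one_div_pow, div_div_eq_mul_div, div_one, ← pow_add, ← pow_mul]
      congr 1
      ring
    rw [e1]
    have h2 : (((2 * N' ^ 2 + B : ℕ) : ℝ)) ≤ (1 / 2) ^ B * ((2 : ℝ) ^ (t / n + 1) - 1) := by
      have h0 : (0 : ℝ) < 2 ^ B := by positivity
      have e : ((1 : ℝ) / 2) ^ B = 1 / 2 ^ B := by rw [one_div_pow]
      rw [e, one_div, inv_mul_eq_div, le_div_iff₀ h0]
      have hK' : ((2 : ℝ) ^ B * (2 * (N' : ℝ) ^ 2 + B) + 1) ≤ 2 ^ (t / n + 1) := by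
        exact_mod_cast hK
      push_cast
      linarith
    have h3 := exp_neg_le_half_pow (2 * N' ^ 2 + B) h2
    have h4 : (2 : ℝ) ^ (2 * N' ^ 2) * Real.exp (-((1 / 2) ^ B * ((2 : ℝ) ^ (t / n + 1) - 1))) ≤
        (1 / 2) ^ B := by
      calc _ ≤ (2 : ℝ) ^ (2 * N' ^ 2) * (1 / 2) ^ (2 * N' ^ 2 + B) :=
            mul_le_mul_of_nonneg_left h3 (by positivity)
        _ = (1 / 2) ^ B := by
            rw [pow_add, ← mul_assoc, ← mul_pow]
            norm_num
    linarith
  · intro I hSF hc hno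
    have hbound : ∀ I' ⊆ I, I'.card ≤ t → phiA g (aI r 4 + (1 - aI r 4) * r) I' ≤ v := by
      intro I' hI' hc'
      rw [hsucc]
      refine (seedFree_phi_le_poly hg hs hb0 hbs hΦ (seedFree_anti hI' hSF)).trans ?_
      refine pow_le_pow_left₀ (by positivity) ?_ n
      have : (I'.card : ℝ) ≤ t := by exact_mod_cast hc'
      linarith
    have h1 := hcov I hSF hc hbound hno
    have h2 : (2 : ℝ) ^ N' * (1 / 2) ^ N' = 1 := by
      rw [← mul_pow]
      norm_num
    rw [h2] at h1
    exact h1.le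

/-- For small `r` the noise `aI r 4` is at least `3 r`. -/
lemma three_mul_le_aI_four {r : ℝ} (hr0 : 0 ≤ r) (hr1 : r ≤ 1 / 8) : 3 * r ≤ aI r 4 := by
  unfold aI
  have h1 : r ^ 2 ≤ r * (1 / 8) := by nlinarith
  have h2 : 0 ≤ r ^ 3 := pow_nonneg hr0 3
  have h3 : r ^ 4 ≤ r * (1 / 8) ^ 3 := by
    have h : r ^ 3 ≤ (1 / 8) ^ 3 := pow_le_pow_left₀ hr0 hr1 3
    calc r ^ 4 = r * r ^ 3 := by ring
      _ ≤ r * (1 / 8) ^ 3 := mul_le_mul_of_nonneg_left h hr0
  have e : (1 - r) ^ 4 = 1 - 4 * r + 6 * r ^ 2 - 4 * r ^ 3 + r ^ 4 := by ring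
  rw [e]
  norm_num at h3 ⊢
  linarith

/-- The self cover: the family of seed free sets of size at most `N` every element of which lies
in a subset of kernel weight at least `γ` has small cost. -/
theorem self_cover (hg : ∀ S, 0 ≤ g S) {a r bs : ℝ} (ha0 : 0 ≤ a) (ha1 : a ≤ 1) (hr0 : 0 < r)
    (hbs : a + (1 - a) * r ≤ bs) (hΦ : phiA g bs ∅ ≤ 1) (N : ℕ) {γ : ℝ} (hγ : 0 < γ)
    (𝓙 : Finset (Finset X))
    (h𝓙 : ∀ J ∈ 𝓙, J.Nonempty ∧ SeedFree g bs J ∧ J.card ≤ N ∧
      ∀ x ∈ J, ∃ A ⊆ J, x ∈ A ∧ γ ≤ hW g a A) :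
    ∑ J ∈ 𝓙, r ^ J.card ≤ (2 ^ N / γ) ^ N := by
  set η : ℝ := γ / 2 ^ N with hη
  have hηpos : 0 < η := div_pos hγ (by positivity)
  have hh : ∀ B, 0 ≤ hW g a B := hW_nonneg hg ha0 ha1
  have hb0 : 0 ≤ a + (1 - a) * r := add_nonneg ha0 (mul_nonneg (sub_nonneg.mpr ha1) hr0.le)
  have hreach : ∀ J ∈ 𝓙, η ^ N ≤ chainW (hW g a) r N J := by
    intro J hJ
    obtain ⟨hne, hSF, hcard, hheavy⟩ := h𝓙 J hJ
    obtain ⟨T, hTJ, hT1, hT2⟩ := chain_path_lower hh hr0 J hne hηpos (fun x hx => by
      obtain ⟨A, hAJ, hxA, hAγ⟩ := hheavy x hx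
      refine ⟨A, hAJ, hxA, lt_of_lt_of_le hγ hAγ, fun T hT => ?_⟩
      rw [kerMass_hW]
      have h1 : phiA g (a + (1 - a) * r) T ≤ 2 ^ N :=
        (seedFree_phi_le hg hb0 hbs hΦ (seedFree_anti hT hSF)).trans
          (pow_le_pow_right₀ (by norm_num) ((Finset.card_le_card hT).trans hcard))
      calc η * phiA g (a + (1 - a) * r) T ≤ η * 2 ^ N :=
            mul_le_mul_of_nonneg_left h1 hηpos.le
        _ = γ := by rw [hη]; field_simp
        _ ≤ _ := hAγ) N
    have hTeq : T = J := by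
      apply Finset.eq_of_subset_of_card_le hTJ
      rwa [min_eq_right hcard] at hT2
    rwa [hTeq] at hT1
  have h1 := family_cost_le hh hr0.le N 𝓙 (pow_pos hηpos N) hreach
  have h2 : 1 / η ^ N = (2 ^ N / γ) ^ N := by
    rw [hη, one_div, ← inv_pow, inv_div]
  rwa [h2] at h1

end Vale.Agent.Lib.P034U
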