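import Vale.Agent.Lib.P034.Chain2

/-!
A Markov type chain on subsets with a general state dependent kernel `ρ T B`: moves from `T` to
`T ∪ B` with weight `ρ T B`. The weighted total mass is conserved if `∑ B, r ^ |B| ρ T B ≤ 1` and
`ρ T B = 0` unless `B` is disjoint from `T`. The rounding of the chain measure gives a cover.
-/

namespace Vale.Agent.Lib.P034U
open Finset Vale.Agent.Lib.P034

variable {X : Type*} [Fintype X] [DecidableEq X]

/-- The weight of the state `T` after `t` steps. -/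
noncomputable def gW (ρ : Finset X → Finset X → ℝ) : ℕ → Finset X → ℝ
  | 0, T => if T = ∅ then 1 else 0
  | t + 1, T' => ∑ T, ∑ B, if T ∪ B = T' then gW ρ t T * ρ T B else 0

variable {ρ : Finset X → Finset X → ℝ} {r : ℝ}

lemma gW_nonneg (hρ : ∀ T B, 0 ≤ ρ T B) (t : ℕ) (T : Finset X) : 0 ≤ gW ρ t T := by
  induction t generalizing T with
  | zero => simp only [gW]; split_ifs <;> norm_num
  | succ t ih =>
    simp only [gW]
    refine Finset.sum_nonneg (fun T' _ => Finset.sum_nonneg (fun B _ => ?_))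
    split_ifs
    · exact mul_nonneg (ih T') (hρ _ _)
    · exact le_rfl

/-- Summing over the values of the union. -/
lemma sum_ite_union (c : Finset X → ℝ) (x : ℝ) (T B : Finset X) :
    (∑ T', c T' * (if T ∪ B = T' then x else 0)) = c (T ∪ B) * x := by
  rw [Finset.sum_eq_single (T ∪ B)]
  · simp
  · intro b _ hb
    rw [if_neg (fun h => hb h.symm), mul_zero]
  · intro h
    exact absurd (Finset.mem_univ _) h

/-- The weighted total mass of the chain does not exceed one. -/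
theorem gW_total (hρ : ∀ T B, 0 ≤ ρ T B) (hr : 0 ≤ r)
    (hdisj : ∀ T B, ρ T B ≠ 0 → Disjoint T B)
    (hsum : ∀ T, ∑ B, r ^ B.card * ρ T B ≤ 1) (t : ℕ) :
    ∑ T, r ^ T.card * gW ρ t T ≤ 1 := by
  induction t with
  | zero =>
    rw [Finset.sum_eq_single (∅ : Finset X)]
    · simp [gW]
    · intro b _ hb
      simp [gW, hb]
    · intro h
      exact absurd (Finset.mem_univ _) h
  | succ t ih =>
    have step : ∀ T' : Finset X, r ^ T'.card * gW ρ (t + 1) T' =
        ∑ T, ∑ B, r ^ T'.card * (if T ∪ B = T' then gW ρ t T * ρ T B else 0) := by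
      intro T'
      simp only [gW, Finset.mul_sum]
    calc ∑ T', r ^ T'.card * gW ρ (t + 1) T'
        = ∑ T', ∑ T, ∑ B, r ^ T'.card * (if T ∪ B = T' then gW ρ t T * ρ T B else 0) :=
          Finset.sum_congr rfl (fun T' _ => step T')
      _ = ∑ T, ∑ B, ∑ T', r ^ T'.card * (if T ∪ B = T' then gW ρ t T * ρ T B else 0) := by
          rw [Finset.sum_comm]
          refine Finset.sum_congr rfl (fun T _ => ?_)
          rw [Finset.sum_comm]
      _ = ∑ T, ∑ B, r ^ (T ∪ B).card * (gW ρ t T * ρ T B) := by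
          refine Finset.sum_congr rfl (fun T _ => Finset.sum_congr rfl (fun B _ => ?_))
          exact sum_ite_union (fun T' => r ^ T'.card) _ T B
      _ ≤ ∑ T, r ^ T.card * gW ρ t T := by
          refine Finset.sum_le_sum (fun T _ => ?_)
          have hw := gW_nonneg hρ t T
          have e : ∀ B, r ^ (T ∪ B).card * (gW ρ t T * ρ T B) =
              (r ^ T.card * gW ρ t T) * (r ^ B.card * ρ T B) := by
            intro B
            by_cases h0 : ρ T B = 0
            · simp [h0]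
            · rw [Finset.card_union_of_disjoint (hdisj T B h0), pow_add]
              ring
          rw [Finset.sum_congr rfl (fun B _ => e B), ← Finset.mul_sum]
          calc _ ≤ (r ^ T.card * gW ρ t T) * 1 :=
                mul_le_mul_of_nonneg_left (hsum T) (mul_nonneg (pow_nonneg hr _) hw)
            _ = _ := mul_one _
      _ ≤ 1 := ih

/-- The chain lives on sets of size at most `t * n`. -/
lemma gW_support {n : ℕ} (hs : ∀ T B, ρ T B ≠ 0 → B.card ≤ n) (t : ℕ) (T : Finset X)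
    (hT : gW ρ t T ≠ 0) : T.card ≤ t * n := by
  induction t generalizing T with
  | zero =>
    simp only [gW] at hT
    by_cases h0 : T = ∅
    · simp [h0]
    · simp [h0] at hT
  | succ t ih =>
    simp only [gW] at hT
    obtain ⟨T', _, hT'⟩ := Finset.exists_ne_zero_of_sum_ne_zero hT
    obtain ⟨B, _, hB⟩ := Finset.exists_ne_zero_of_sum_ne_zero hT'
    by_cases hu : T' ∪ B = T
    · rw [if_pos hu] at hB
      have h1 : gW ρ t T' ≠ 0 := fun h0 => hB (by simp [h0])
      have h2 : ρ T' B ≠ 0 := fun h0 => hB (by simp [h0])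
      have h3 := ih T' h1
      have h4 := hs T' B h2
      calc T.card = (T' ∪ B).card := by rw [hu]
        _ ≤ T'.card + B.card := Finset.card_union_le _ _
        _ ≤ t * n + n := by omega
        _ = (t + 1) * n := by ring
    · rw [if_neg hu] at hB
      exact absurd rfl hB

/-- One step along a path. -/
lemma gW_succ_ge (hρ : ∀ T B, 0 ≤ ρ T B) (t : ℕ) (T B : Finset X) :
    gW ρ t T * ρ T B ≤ gW ρ (t + 1) (T ∪ B) := by
  simp only [gW]
  have h1 : ∀ T' ∈ (Finset.univ : Finset (Finset X)), 0 ≤ ∑ B', if T' ∪ B' = T ∪ B then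
      gW ρ t T' * ρ T' B' else 0 := by
    intro T' _
    refine Finset.sum_nonneg (fun B' _ => ?_)
    split_ifs
    · exact mul_nonneg (gW_nonneg hρ t T') (hρ _ _)
    · exact le_rfl
  have h2 := Finset.single_le_sum h1 (Finset.mem_univ T)
  refine le_trans ?_ h2
  have h3 : ∀ B' ∈ (Finset.univ : Finset (Finset X)), 0 ≤ if T ∪ B' = T ∪ B then
      gW ρ t T * ρ T B' else 0 := by
    intro B' _
    split_ifs
    · exact mul_nonneg (gW_nonneg hρ t T) (hρ _ _)
    · exact le_rfl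
  have h4 := Finset.single_le_sum h3 (Finset.mem_univ B)
  simpa using h4

/-- A closed family of states grows by the gain. -/
theorem gW_gain (hρ : ∀ T B, 0 ≤ ρ T B) (Tt : Finset (Finset X)) (J : Finset X)
    (hcl : ∀ T ∈ Tt, ∀ B ⊆ J \ T, T ∪ B ∈ Tt) {β : ℝ} (t : ℕ)
    (hgain : ∀ T ∈ Tt, gW ρ t T ≠ 0 → β ≤ ∑ B ∈ (J \ T).powerset, ρ T B) :
    β * ∑ T ∈ Tt, gW ρ t T ≤ ∑ T ∈ Tt, gW ρ (t + 1) T := by
  have e1 : ∑ T' ∈ Tt, gW ρ (t + 1) T' =
      ∑ T, ∑ B, ∑ T' ∈ Tt, if T ∪ B = T' then gW ρ t T * ρ T B else 0 := by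
    simp only [gW]
    rw [Finset.sum_comm]
    refine Finset.sum_congr rfl (fun T _ => ?_)
    rw [Finset.sum_comm]
  have hnn : ∀ T B, 0 ≤ ∑ T' ∈ Tt, if T ∪ B = T' then gW ρ t T * ρ T B else 0 := by
    intro T B
    refine Finset.sum_nonneg (fun T' _ => ?_)
    split_ifs
    · exact mul_nonneg (gW_nonneg hρ t T) (hρ _ _)
    · exact le_rfl
  have e2 : ∀ T ∈ Tt, ∀ B ⊆ J \ T,
      (∑ T' ∈ Tt, if T ∪ B = T' then gW ρ t T * ρ T B else 0) = gW ρ t T * ρ T B := by
    intro T hT B hB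
    rw [Finset.sum_eq_single (T ∪ B)]
    · simp
    · intro b _ hb
      rw [if_neg (fun h => hb h.symm)]
    · intro h
      exact absurd (hcl T hT B hB) h
  rw [e1, Finset.mul_sum]
  calc ∑ T ∈ Tt, β * gW ρ t T
      ≤ ∑ T ∈ Tt, ∑ B ∈ (J \ T).powerset, gW ρ t T * ρ T B := by
        refine Finset.sum_le_sum (fun T hT => ?_)
        rw [← Finset.mul_sum, mul_comm]
        by_cases h0 : gW ρ t T = 0
        · simp [h0]
        · exact mul_le_mul_of_nonneg_left (hgain T hT h0) (gW_nonneg hρ t T)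
    _ = ∑ T ∈ Tt, ∑ B ∈ (J \ T).powerset,
          ∑ T' ∈ Tt, if T ∪ B = T' then gW ρ t T * ρ T B else 0 := by
        refine Finset.sum_congr rfl (fun T hT => Finset.sum_congr rfl (fun B hB => ?_))
        rw [e2 T hT B (Finset.mem_powerset.1 hB)]
    _ ≤ ∑ T ∈ Tt, ∑ B, ∑ T' ∈ Tt, if T ∪ B = T' then gW ρ t T * ρ T B else 0 := by
        refine Finset.sum_le_sum (fun T _ => ?_)
        exact Finset.sum_le_sum_of_subset_of_nonneg (Finset.subset_univ _)
          (fun B _ _ => hnn T B)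
    _ ≤ ∑ T, ∑ B, ∑ T' ∈ Tt, if T ∪ B = T' then gW ρ t T * ρ T B else 0 :=
        Finset.sum_le_sum_of_subset_of_nonneg (Finset.subset_univ _)
          (fun T _ _ => Finset.sum_nonneg (fun B _ => hnn T B))

/-- Iterated gain on a closed family, from time `t0` to time `t0 + s`. -/
theorem gW_gain_iter (hρ : ∀ T B, 0 ≤ ρ T B) (Tt : Finset (Finset X)) (J : Finset X)
    (hcl : ∀ T ∈ Tt, ∀ B ⊆ J \ T, T ∪ B ∈ Tt) {β : ℝ} (hβ : 0 ≤ β) (t0 s : ℕ)
    (hgain : ∀ t, t0 ≤ t → t < t0 + s → ∀ T ∈ Tt, gW ρ t T ≠ 0 →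
      β ≤ ∑ B ∈ (J \ T).powerset, ρ T B) :
    β ^ s * ∑ T ∈ Tt, gW ρ t0 T ≤ ∑ T ∈ Tt, gW ρ (t0 + s) T := by
  induction s with
  | zero => simp
  | succ s ih =>
    have h1 := ih (fun t h1 h2 => hgain t h1 (by omega))
    have h2 := gW_gain hρ Tt J hcl (β := β) (t0 + s)
      (hgain (t0 + s) (by omega) (by omega))
    calc β ^ (s + 1) * ∑ T ∈ Tt, gW ρ t0 T
        = β * (β ^ s * ∑ T ∈ Tt, gW ρ t0 T) := by ring
      _ ≤ β * ∑ T ∈ Tt, gW ρ (t0 + s) T := mul_le_mul_of_nonneg_left h1 hβ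
      _ ≤ ∑ T ∈ Tt, gW ρ (t0 + s + 1) T := h2

/-- The mass at the empty set is at most one. -/
lemma gW_empty_le (hρ : ∀ T B, 0 ≤ ρ T B) (hr : 0 ≤ r)
    (hdisj : ∀ T B, ρ T B ≠ 0 → Disjoint T B)
    (hsum : ∀ T, ∑ B, r ^ B.card * ρ T B ≤ 1) (t : ℕ) :
    gW ρ t ∅ ≤ 1 := by
  have h1 := gW_total hρ hr hdisj hsum t
  have h2 : r ^ (∅ : Finset X).card * gW ρ t ∅ ≤ ∑ T, r ^ T.card * gW ρ t T :=
    Finset.single_le_sum (f := fun T => r ^ T.card * gW ρ t T)
      (fun T _ => mul_nonneg (pow_nonneg hr _) (gW_nonneg hρ t T))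
      (Finset.mem_univ _)
  simp only [Finset.card_empty, pow_zero, one_mul] at h2
  linarith

/-- The rounding of the chain measure: a family `JJ` of targets of total cost at most `Z`, each of
chain mass at least `M`, all contain a member of a family of cost at most
`lam + Z * exp (-lam (M - 1))`. -/
theorem gW_round (hρ : ∀ T B, 0 ≤ ρ T B) (hr : 0 ≤ r)
    (hdisj : ∀ T B, ρ T B ≠ 0 → Disjoint T B)
    (hsum : ∀ T, ∑ B, r ^ B.card * ρ T B ≤ 1) (k : ℕ)
    (JJ : Finset (Finset X)) {Z M lam : ℝ} (hZ : ∑ J ∈ JJ, r ^ J.card ≤ Z)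
    (hM : ∀ J ∈ JJ, M ≤ ∑ T ∈ J.powerset, gW ρ k T) (hlam : 0 ≤ lam) :
    ∃ C : Finset (Finset X), ∑ T ∈ C, r ^ T.card ≤ lam + Z * Real.exp (-(lam * (M - 1))) ∧
      ∀ J ∈ JJ, ∃ T ∈ C, T ⊆ J := by
  classical
  set E : ℝ := Real.exp (-(lam * (M - 1))) with hE
  have hEpos : 0 ≤ E := (Real.exp_pos _).le
  set S : Finset (Finset X) := Finset.univ.filter (fun T => T ≠ ∅) with hS
  set u : Finset X → ℝ := fun T => lam * gW ρ k T with hu
  set y : Finset X → ℝ := fun T => min 1 (u T) with hy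
  have hu0 : ∀ T, 0 ≤ u T := fun T => mul_nonneg hlam (gW_nonneg hρ k T)
  have hy0 : ∀ T, 0 ≤ y T := fun T => le_min zero_le_one (hu0 T)
  have hy1 : ∀ T, y T ≤ 1 := fun T => min_le_left _ _
  obtain ⟨𝒯, h𝒯S, hround⟩ := rounding_exists S (fun T => r ^ T.card) y hy0 hy1 JJ
    (fun T I => T ⊆ I) (fun I => r ^ I.card) (fun I => pow_nonneg hr _)
  have hprod : ∀ I ∈ JJ, ∏ T ∈ S.filter (fun T => T ⊆ I), (1 - y T) ≤ E := by
    intro I hI
    have hlow := hM I hI
    have hempty : gW ρ k ∅ ≤ 1 := gW_empty_le hρ hr hdisj hsum k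
    have hsplit : ∑ T ∈ I.powerset, gW ρ k T =
        gW ρ k ∅ + ∑ T ∈ S.filter (fun T => T ⊆ I), gW ρ k T := by
      rw [← Finset.add_sum_erase _ _ (Finset.empty_mem_powerset I)]
      refine congrArg _ (Finset.sum_congr ?_ (fun _ _ => rfl))
      ext T
      simp [hS]
    have hsum' : M - 1 ≤ ∑ T ∈ S.filter (fun T => T ⊆ I), gW ρ k T := by
      linarith
    calc ∏ T ∈ S.filter (fun T => T ⊆ I), (1 - y T)
        ≤ Real.exp (-∑ T ∈ S.filter (fun T => T ⊆ I), u T) := prod_one_sub_min_le _ _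
      _ ≤ E := by
          apply Real.exp_le_exp.mpr
          apply neg_le_neg
          simp only [hu]
          rw [← Finset.mul_sum]
          exact mul_le_mul_of_nonneg_left hsum' hlam
  have hyc : ∑ T ∈ S, y T * r ^ T.card ≤ lam := by
    calc ∑ T ∈ S, y T * r ^ T.card ≤ ∑ T ∈ S, lam * (r ^ T.card * gW ρ k T) := by
          refine Finset.sum_le_sum (fun T _ => ?_)
          have : y T ≤ lam * gW ρ k T := min_le_right _ _
          calc y T * r ^ T.card ≤ (lam * gW ρ k T) * r ^ T.card :=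
                mul_le_mul_of_nonneg_right this (pow_nonneg hr _)
            _ = _ := by ring
      _ ≤ ∑ T, lam * (r ^ T.card * gW ρ k T) :=
          Finset.sum_le_sum_of_subset_of_nonneg (Finset.subset_univ _)
            (fun T _ _ => mul_nonneg hlam (mul_nonneg (pow_nonneg hr _)
              (gW_nonneg hρ k T)))
      _ = lam * ∑ T, r ^ T.card * gW ρ k T := by rw [Finset.mul_sum]
      _ ≤ lam * 1 := mul_le_mul_of_nonneg_left (gW_total hρ hr hdisj hsum k) hlam
      _ = lam := mul_one _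
  have htarget : ∑ I ∈ JJ, r ^ I.card * ∏ T ∈ S.filter (fun T => T ⊆ I), (1 - y T) ≤ Z * E := by
    calc ∑ I ∈ JJ, r ^ I.card * ∏ T ∈ S.filter (fun T => T ⊆ I), (1 - y T)
        ≤ ∑ I ∈ JJ, r ^ I.card * E :=
          Finset.sum_le_sum (fun I hI =>
            mul_le_mul_of_nonneg_left (hprod I hI) (pow_nonneg hr _))
      _ = (∑ I ∈ JJ, r ^ I.card) * E := by rw [Finset.sum_mul]
      _ ≤ _ := mul_le_mul_of_nonneg_right hZ hEpos
  set Miss : Finset (Finset X) := JJ.filter (fun I => ¬ ∃ T ∈ 𝒯, T ⊆ I) with hMiss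
  refine ⟨𝒯 ∪ Miss, ?_, ?_⟩
  · have hmisscost : ∑ I ∈ Miss, r ^ I.card =
        ∑ I ∈ JJ, (if ∃ T ∈ 𝒯, T ⊆ I then 0 else r ^ I.card) := by
      rw [hMiss, Finset.sum_filter]
      refine Finset.sum_congr rfl (fun I _ => ?_)
      by_cases hc : ∃ T ∈ 𝒯, T ⊆ I
      · rw [if_pos hc, if_neg (not_not.mpr hc)]
      · rw [if_neg hc, if_pos hc]
    have hunion : ∑ T ∈ 𝒯 ∪ Miss, r ^ T.card ≤ ∑ T ∈ 𝒯, r ^ T.card + ∑ T ∈ Miss, r ^ T.card := by
      rw [← Finset.sum_union_inter]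
      have : 0 ≤ ∑ T ∈ 𝒯 ∩ Miss, r ^ T.card := Finset.sum_nonneg (fun T _ => pow_nonneg hr _)
      linarith
    have hround' : ∑ T ∈ 𝒯, r ^ T.card + ∑ I ∈ Miss, r ^ I.card ≤
        ∑ T ∈ S, y T * r ^ T.card +
          ∑ I ∈ JJ, r ^ I.card * ∏ T ∈ S.filter (fun T => T ⊆ I), (1 - y T) := by
      rw [hmisscost]
      refine le_trans (le_of_eq ?_) (le_trans hround (le_of_eq ?_))
      · refine congrArg _ (Finset.sum_congr rfl (fun I _ => ?_))
        split_ifs <;> rfl
      · refine congrArg _ (Finset.sum_congr rfl (fun I _ => ?_))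
        refine congrArg _ (Finset.prod_congr ?_ (fun _ _ => rfl))
        ext T
        simp only [Finset.mem_filter]
    linarith
  · intro J hJ
    by_cases hc : ∃ T ∈ 𝒯, T ⊆ J
    · obtain ⟨T, hT, hTJ⟩ := hc
      exact ⟨T, Finset.mem_union_left _ hT, hTJ⟩
    · exact ⟨J, Finset.mem_union_right _ (Finset.mem_filter.mpr ⟨hJ, hc⟩), subset_refl _⟩

end Vale.Agent.Lib.P034U
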