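import Mathlib
import Vale.Agent.Lib.P034U.Score
import Vale.Agent.Lib.P034U.GenChain

/-!
The gain inequality of the level step: target masses, the numerator, the capped mass and the
mixture kernel.
-/

namespace Vale.Agent.Lib.P034U
open Finset
open Vale.Agent.Lib.P034
open scoped Classical

variable {X : Type*} [Fintype X] [DecidableEq X] {g : Finset X → ℝ}

/-- The target term of `S` at `I`. -/
noncomputable def tm (g : Finset X → ℝ) (r l : ℝ) (I S : Finset X) : ℝ :=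
  g S * ((1 / 2) ^ (Hi g (2 * r) l S I).card * (2 * r) ^ (S \ I).card)

/-- The target mass with trace `A` on `I`. -/
noncomputable def mA (g : Finset X → ℝ) (r lp l : ℝ) (I A : Finset X) : ℝ :=
  ∑ S ∈ univ.filter (fun S => Unc g (2 * r) lp S I ∧ S ∩ I = A), tm g r l I S

lemma tm_nonneg (hg : ∀ S, 0 ≤ g S) {r : ℝ} (hr : 0 ≤ r) (l : ℝ) (I S : Finset X) :
    0 ≤ tm g r l I S :=
  mul_nonneg (hg S) (mul_nonneg (pow_nonneg (by norm_num) _) (pow_nonneg (by positivity) _))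

lemma mA_nonneg (hg : ∀ S, 0 ≤ g S) {r : ℝ} (hr : 0 ≤ r) (lp l : ℝ) (I A : Finset X) :
    0 ≤ mA g r lp l I A :=
  Finset.sum_nonneg (fun S _ => tm_nonneg hg hr l I S)

/-- Summing `mA` over a family of traces. -/
lemma sum_mA (r lp l : ℝ) (I : Finset X) (W : Finset (Finset X)) :
    ∑ A ∈ W, mA g r lp l I A =
      ∑ S ∈ univ.filter (fun S => Unc g (2 * r) lp S I ∧ S ∩ I ∈ W), tm g r l I S := by
  classical
  unfold mA
  rw [Finset.sum_comm' (s' := fun S => {S ∩ I})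
    (t' := univ.filter (fun S => Unc g (2 * r) lp S I ∧ S ∩ I ∈ W))]
  · refine Finset.sum_congr rfl (fun S _ => ?_)
    simp
  · intro A S
    simp only [Finset.mem_filter, Finset.mem_univ, true_and, Finset.mem_singleton]
    constructor
    · rintro ⟨hA, hU, e⟩
      exact ⟨e.symm, hU, e ▸ hA⟩
    · rintro ⟨e, hU, hA⟩
      exact ⟨e ▸ hA, hU, e.symm⟩

/-- The potential as a sum over traces. -/
lemma vv_eq_sum_mA (r lp l : ℝ) (I : Finset X) :
    vv g (2 * r) lp l I = ∑ A ∈ I.powerset, mA g r lp l I A := by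
  classical
  rw [sum_mA]
  unfold vv tm
  refine Finset.sum_congr ?_ (fun _ _ => rfl)
  ext S
  simp only [Finset.mem_filter, Finset.mem_univ, true_and, Finset.mem_powerset]
  constructor
  · exact fun h => ⟨h, Finset.inter_subset_right⟩
  · exact fun h => h.1

/-- (a): the mass with trace `A` bounds the score of `A \ T` at every `T` inside `I`. -/
lemma mA_le_score (hg : ∀ S, 0 ≤ g S) {r : ℝ} (hr : 0 ≤ r) (lp l : ℝ) {I T A : Finset X}
    (hTI : T ⊆ I) : mA g r lp l I A ≤ score g (2 * r) (A \ T) T := by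
  classical
  unfold mA score tm
  have hsub : univ.filter (fun S => Unc g (2 * r) lp S I ∧ S ∩ I = A) ⊆
      univ.filter (fun S => A \ T ⊆ S) := by
    intro S hS
    rw [Finset.mem_filter] at hS ⊢
    refine ⟨hS.1, ?_⟩
    rw [← hS.2.2]
    exact Finset.sdiff_subset.trans Finset.inter_subset_left
  refine le_trans (Finset.sum_le_sum (fun S hS => ?_))
    (Finset.sum_le_sum_of_subset_of_nonneg hsub
      (fun S _ _ => mul_nonneg (hg S) (pow_nonneg (by positivity) _)))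
  have hA : S ∩ I = A := (Finset.mem_filter.mp hS).2.2
  have e : S \ (T ∪ (A \ T)) = S \ I := by
    ext z
    simp only [Finset.mem_sdiff, Finset.mem_union, ← hA, Finset.mem_inter]
    constructor
    · rintro ⟨hz, h⟩
      refine ⟨hz, fun hzI => h ?_⟩
      by_cases hzT : z ∈ T
      · exact Or.inl hzT
      · exact Or.inr ⟨⟨hz, hzI⟩, hzT⟩
    · rintro ⟨hz, h⟩
      refine ⟨hz, ?_⟩
      rintro (h1 | h1)
      · exact h (hTI h1)
      · exact h h1.1.2
  rw [e]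
  refine mul_le_mul_of_nonneg_left ?_ (hg S)
  have h1 : ((1 : ℝ) / 2) ^ (Hi g (2 * r) l S I).card ≤ 1 :=
    pow_le_one₀ (by norm_num) (by norm_num)
  have h2 : (0 : ℝ) ≤ (2 * r) ^ (S \ I).card := pow_nonneg (by positivity) _
  nlinarith

/-- Present high elements: uncapped at `I` forces the high elements at `T` into `I`. -/
lemma Hi_subset_of_Unc (hg : ∀ S, 0 ≤ g S) {b k : ℝ} (hb0 : 0 ≤ b) (hb1 : b ≤ 1)
    {S T I : Finset X} (hTI : T ⊆ I) (hU : Unc g b k S I) : Hi g b k S T ⊆ (S ∩ I) \ T := by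
  intro z hz
  have hzST := Hi_subset (g := g) b k S T hz
  rw [mem_Hi] at hz
  obtain ⟨C, hC, hzC, hth⟩ := hz
  rw [Finset.mem_sdiff] at hzST
  rw [Finset.mem_sdiff, Finset.mem_inter]
  refine ⟨⟨hzST.1, ?_⟩, hzST.2⟩
  by_contra hzI
  have h1 := score_mono hg hb0 hb1 (C := C) hTI
  have hsub : C \ I ⊆ S \ I := by
    intro y hy
    rw [Finset.mem_sdiff] at hy ⊢
    exact ⟨(Finset.mem_sdiff.mp (hC hy.1)).1, hy.2⟩
  have hne : C \ I ≠ ∅ := by
    intro h0
    have : z ∈ C \ I := Finset.mem_sdiff.mpr ⟨hzC, hzI⟩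
    rw [h0] at this
    simp at this
  have := hU (C \ I) hsub hne
  linarith

/-- The absent high elements at `T` are high at `I`. -/
lemma Hi_absent_subset (hg : ∀ S, 0 ≤ g S) {b l : ℝ} (hb0 : 0 ≤ b) (hb1 : b ≤ 1)
    {S T I : Finset X} (hTI : T ⊆ I) : Hi g b l S T \ ((S ∩ I) \ T) ⊆ Hi g b l S I := by
  intro z hz
  rw [Finset.mem_sdiff] at hz
  obtain ⟨hzH, hzA⟩ := hz
  have hzST := Hi_subset (g := g) b l S T hzH
  rw [mem_Hi] at hzH ⊢
  obtain ⟨C, hC, hzC, hth⟩ := hzH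
  rw [Finset.mem_sdiff] at hzST
  have hzI : z ∉ I := by
    intro hzI
    exact hzA (Finset.mem_sdiff.mpr ⟨Finset.mem_inter.mpr ⟨hzST.1, hzI⟩, hzST.2⟩)
  refine ⟨C \ I, ?_, Finset.mem_sdiff.mpr ⟨hzC, hzI⟩, hth.trans (score_mono hg hb0 hb1 hTI)⟩
  intro y hy
  rw [Finset.mem_sdiff] at hy ⊢
  exact ⟨(Finset.mem_sdiff.mp (hC hy.1)).1, hy.2⟩

/-- The trace `A \ T` is high at `T`. -/
lemma trace_subset_Hi (hg : ∀ S, 0 ≤ g S) {r lp l : ℝ} (hr : 0 ≤ r)
    {S T I : Finset X} (hTI : T ⊆ I) (hm : l ≤ mA g r lp l I (S ∩ I)) :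
    (S ∩ I) \ T ⊆ Hi g (2 * r) l S T := by
  intro z hz
  rw [mem_Hi]
  refine ⟨(S ∩ I) \ T, ?_, hz, hm.trans (mA_le_score hg hr lp l hTI)⟩
  intro y hy
  rw [Finset.mem_sdiff, Finset.mem_inter] at hy
  rw [Finset.mem_sdiff]
  exact ⟨hy.1.1, hy.2⟩

/-- (b): the coefficient of the kernel at the trace dominates the target term. -/
lemma coeff_ge (hg : ∀ S, 0 ≤ g S) {r l lp : ℝ} (hr : 0 ≤ r) (hb1 : 2 * r ≤ 1)
    {S T I : Finset X} (hTI : T ⊆ I) (hm : l ≤ mA g r lp l I (S ∩ I)) :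
    tm g r l I S ≤ g S * (r ^ (Hi g (2 * r) l S T \ ((S ∩ I) \ T)).card *
      (2 * r) ^ ((S \ T) \ Hi g (2 * r) l S T).card) := by
  set E := Hi g (2 * r) l S T with hE
  set B := (S ∩ I) \ T with hB
  have hBE : B ⊆ E := trace_subset_Hi hg hr hTI hm
  have hES : E ⊆ S \ T := Hi_subset _ _ _ _
  have hsplit : (S \ T).card = B.card + (S \ I).card := by
    have hdisj : Disjoint B (S \ I) := by
      rw [Finset.disjoint_left]
      intro z hz hz'
      rw [hB, Finset.mem_sdiff, Finset.mem_inter] at hz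
      rw [Finset.mem_sdiff] at hz'
      exact hz'.2 hz.1.2
    rw [← Finset.card_union_of_disjoint hdisj]
    congr 1
    ext z
    simp only [hB, Finset.mem_sdiff, Finset.mem_union, Finset.mem_inter]
    constructor
    · rintro ⟨hzS, hzT⟩
      by_cases hzI : z ∈ I
      · exact Or.inl ⟨⟨hzS, hzI⟩, hzT⟩
      · exact Or.inr ⟨hzS, hzI⟩
    · rintro (⟨⟨hzS, _⟩, hzT⟩ | ⟨hzS, hzI⟩)
      · exact ⟨hzS, hzT⟩
      · exact ⟨hzS, fun hzT => hzI (hTI hzT)⟩
  have hc1 : (E \ B).card = E.card - B.card := Finset.card_sdiff_of_subset hBE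
  have hc2 : ((S \ T) \ E).card = (S \ T).card - E.card := Finset.card_sdiff_of_subset hES
  have hc3 : B.card ≤ E.card := Finset.card_le_card hBE
  have hc4 : E.card ≤ (S \ T).card := Finset.card_le_card hES
  have hc5 : (E \ B).card ≤ (S \ I).card := by omega
  have hc6 : ((S \ T) \ E).card + (E \ B).card = (S \ I).card := by omega
  have habs : (E \ B).card ≤ (Hi g (2 * r) l S I).card :=
    Finset.card_le_card (Hi_absent_subset hg (by positivity) hb1 hTI)
  unfold tm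
  refine mul_le_mul_of_nonneg_left ?_ (hg S)
  rw [← hc6, pow_add, mul_pow 2 r (E \ B).card]
  have h0 : (0 : ℝ) ≤ r ^ (E \ B).card * (2 * r) ^ ((S \ T) \ E).card :=
    mul_nonneg (pow_nonneg hr _) (pow_nonneg (by positivity) _)
  have h1 : ((1 : ℝ) / 2) ^ (Hi g (2 * r) l S I).card ≤ (1 / 2) ^ (E \ B).card :=
    pow_le_pow_of_le_one (by norm_num) (by norm_num) habs
  have h2 : ((1 : ℝ) / 2) ^ (E \ B).card * 2 ^ (E \ B).card = 1 := by
    rw [← mul_pow]; norm_num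
  calc ((1 : ℝ) / 2) ^ (Hi g (2 * r) l S I).card *
        ((2 * r) ^ ((S \ T) \ E).card * (2 ^ (E \ B).card * r ^ (E \ B).card))
      ≤ (1 / 2) ^ (E \ B).card *
        ((2 * r) ^ ((S \ T) \ E).card * (2 ^ (E \ B).card * r ^ (E \ B).card)) :=
        mul_le_mul_of_nonneg_right h1 (by positivity)
    _ = (((1 : ℝ) / 2) ^ (E \ B).card * 2 ^ (E \ B).card) *
        (r ^ (E \ B).card * (2 * r) ^ ((S \ T) \ E).card) := by ring
    _ = _ := by rw [h2, one_mul]

/-- (b): the kernel mass on subsets of `J \ T` dominates the target terms of uncapped sets. -/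
theorem numerator_ge (hg : ∀ S, 0 ≤ g S) {r lpp lp l : ℝ} (hr : 0 ≤ r) (hb1 : 2 * r ≤ 1)
    {I T J : Finset X} (hTI : T ⊆ I) (W : Finset (Finset X))
    (hW : ∀ A ∈ W, l ≤ mA g r lp l I A) (hWJ : ∀ A ∈ W, A ⊆ J) :
    ∑ S ∈ univ.filter (fun S => (Unc g (2 * r) lp S I ∧ S ∩ I ∈ W) ∧ Unc g (2 * r) lpp S T),
        tm g r l I S ≤ ∑ B ∈ (J \ T).powerset, hh g r lpp lp l T B := by
  have hnn : ∀ S B : Finset X, 0 ≤ g S * (r ^ (Hi g (2 * r) l S T \ B).card *
      (2 * r) ^ ((S \ T) \ Hi g (2 * r) l S T).card) := fun S B =>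
    mul_nonneg (hg S) (mul_nonneg (pow_nonneg hr _) (pow_nonneg (by positivity) _))
  have e : ∑ B ∈ (J \ T).powerset, hh g r lpp lp l T B =
      ∑ S, ∑ B ∈ (J \ T).powerset,
        if Unc g (2 * r) lpp S T ∧ Hi g (2 * r) lp S T ⊆ B ∧ B ⊆ Hi g (2 * r) l S T then
          g S * (r ^ (Hi g (2 * r) l S T \ B).card *
            (2 * r) ^ ((S \ T) \ Hi g (2 * r) l S T).card) else 0 := by
    rw [Finset.sum_comm]
    refine Finset.sum_congr rfl (fun B _ => ?_)
    unfold hh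
    rw [Finset.sum_filter]
  rw [e, Finset.sum_filter]
  refine Finset.sum_le_sum (fun S _ => ?_)
  split_ifs with hc
  · obtain ⟨⟨hU, hSW⟩, hUT⟩ := hc
    have hm := hW _ hSW
    have hB : (S ∩ I) \ T ∈ (J \ T).powerset := by
      rw [Finset.mem_powerset]
      exact Finset.sdiff_subset_sdiff (hWJ _ hSW) (Finset.Subset.refl _)
    have hallowed : Unc g (2 * r) lpp S T ∧ Hi g (2 * r) lp S T ⊆ (S ∩ I) \ T ∧
        (S ∩ I) \ T ⊆ Hi g (2 * r) l S T :=
      ⟨hUT, Hi_subset_of_Unc hg (by positivity) hb1 hTI hU, trace_subset_Hi hg hr hTI hm⟩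
    refine (coeff_ge hg hr hb1 hTI hm).trans ?_
    have := Finset.single_le_sum (f := fun B =>
        if Unc g (2 * r) lpp S T ∧ Hi g (2 * r) lp S T ⊆ B ∧ B ⊆ Hi g (2 * r) l S T then
          g S * (r ^ (Hi g (2 * r) l S T \ B).card *
            (2 * r) ^ ((S \ T) \ Hi g (2 * r) l S T).card) else 0)
      (fun B _ => by
        show 0 ≤ ite _ _ _
        split_ifs
        · exact hnn S B
        · exact le_rfl) hB
    simp only [if_pos hallowed] at this
    exact this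
  · refine Finset.sum_nonneg (fun B _ => ?_)
    split_ifs
    · exact hnn S B
    · exact le_rfl

/-- (c): a set uncapped at `I` but capped at `T` is capped by a present subset. -/
lemma capped_present (hg : ∀ S, 0 ≤ g S) {b lpp lp : ℝ} (hb0 : 0 ≤ b) (hb1 : b ≤ 1)
    (hlp : lp ≤ lpp) {S T I : Finset X} (hTI : T ⊆ I) (hU : Unc g b lp S I)
    (hcap : ¬ Unc g b lpp S T) :
    ∃ C, C ≠ ∅ ∧ C ⊆ (S ∩ I) \ T ∧ lpp ≤ score g b C T := by
  unfold Unc at hcap
  push Not at hcap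
  obtain ⟨C, hC, hne, hth⟩ := hcap
  refine ⟨C, Finset.nonempty_iff_ne_empty.mp hne, ?_, hth⟩
  intro z hz
  have hzST := hC hz
  rw [Finset.mem_sdiff] at hzST ⊢
  refine ⟨Finset.mem_inter.mpr ⟨hzST.1, ?_⟩, hzST.2⟩
  by_contra hzI
  have h1 := score_mono hg hb0 hb1 (C := C) hTI
  have hsub : C \ I ⊆ S \ I := by
    intro y hy
    rw [Finset.mem_sdiff] at hy ⊢
    exact ⟨(Finset.mem_sdiff.mp (hC hy.1)).1, hy.2⟩
  have hne' : C \ I ≠ ∅ := by
    intro h0
    have : z ∈ C \ I := Finset.mem_sdiff.mpr ⟨hz, hzI⟩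
    rw [h0] at this
    simp at this
  have := hU (C \ I) hsub hne'
  linarith

/-- (c), summed: the capped mass is at most the sum over capping sets of the mass above them. -/
theorem capped_mass_le (hg : ∀ S, 0 ≤ g S) {r lpp lp l : ℝ} (hr : 0 ≤ r) (hb1 : 2 * r ≤ 1)
    (hlp : lp ≤ lpp) {I T J : Finset X} (hTI : T ⊆ I) (W : Finset (Finset X))
    (hWJ : ∀ A ∈ W, A ⊆ J) :
    ∑ S ∈ univ.filter (fun S => (Unc g (2 * r) lp S I ∧ S ∩ I ∈ W) ∧ ¬ Unc g (2 * r) lpp S T),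
        tm g r l I S ≤
      ∑ C ∈ (J \ T).powerset.filter (fun C => C ≠ ∅ ∧ lpp ≤ score g (2 * r) C T),
        ∑ A ∈ W.filter (fun A => C ⊆ A), mA g r lp l I A := by
  set Cc := (J \ T).powerset.filter (fun C => C ≠ ∅ ∧ lpp ≤ score g (2 * r) C T) with hCc
  have h1 : ∀ C ∈ Cc, ∑ A ∈ W.filter (fun A => C ⊆ A), mA g r lp l I A =
      ∑ S, if Unc g (2 * r) lp S I ∧ S ∩ I ∈ W.filter (fun A => C ⊆ A) then tm g r l I S else 0 := by
    intro C _
    rw [sum_mA, Finset.sum_filter]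
  rw [Finset.sum_congr rfl h1, Finset.sum_comm, Finset.sum_filter]
  refine Finset.sum_le_sum (fun S _ => ?_)
  split_ifs with hc
  · obtain ⟨⟨hU, hSW⟩, hcap⟩ := hc
    obtain ⟨C, hne, hC, hth⟩ := capped_present hg (by positivity) hb1 hlp hTI hU hcap
    have hCm : C ∈ Cc := by
      rw [hCc, Finset.mem_filter, Finset.mem_powerset]
      exact ⟨hC.trans (Finset.sdiff_subset_sdiff (hWJ _ hSW) (Finset.Subset.refl _)), hne, hth⟩
    have hCsub : C ⊆ S ∩ I := hC.trans Finset.sdiff_subset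
    have := Finset.single_le_sum (f := fun C =>
        if Unc g (2 * r) lp S I ∧ S ∩ I ∈ W.filter (fun A => C ⊆ A) then tm g r l I S else 0)
      (fun C' _ => by
        show 0 ≤ ite _ _ _
        split_ifs
        · exact tm_nonneg hg hr l I S
        · exact le_rfl) hCm
    simp only [Finset.mem_filter] at this ⊢
    rw [if_pos ⟨hU, hSW, hCsub⟩] at this
    exact this
  · refine Finset.sum_nonneg (fun C _ => ?_)
    split_ifs
    · exact tm_nonneg hg hr l I S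
    · exact le_rfl

/-- The numerator minus the capped mass. -/
theorem numerator_sub (hg : ∀ S, 0 ≤ g S) {r lpp lp l : ℝ} (hr : 0 ≤ r) (hb1 : 2 * r ≤ 1)
    (hlp : lp ≤ lpp) {I T J : Finset X} (hTI : T ⊆ I) (W : Finset (Finset X))
    (hW : ∀ A ∈ W, l ≤ mA g r lp l I A) (hWJ : ∀ A ∈ W, A ⊆ J) :
    ∑ A ∈ W, mA g r lp l I A -
      ∑ C ∈ (J \ T).powerset.filter (fun C => C ≠ ∅ ∧ lpp ≤ score g (2 * r) C T),
        ∑ A ∈ W.filter (fun A => C ⊆ A), mA g r lp l I A ≤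
      ∑ B ∈ (J \ T).powerset, hh g r lpp lp l T B := by
  have h1 := numerator_ge (lpp := lpp) hg hr hb1 hTI W hW hWJ
  have h2 := capped_mass_le (l := l) hg hr hb1 hlp hTI W hWJ
  have h3 : ∑ A ∈ W, mA g r lp l I A =
      ∑ S ∈ univ.filter (fun S => (Unc g (2 * r) lp S I ∧ S ∩ I ∈ W) ∧ Unc g (2 * r) lpp S T),
        tm g r l I S +
      ∑ S ∈ univ.filter (fun S => (Unc g (2 * r) lp S I ∧ S ∩ I ∈ W) ∧ ¬ Unc g (2 * r) lpp S T),
        tm g r l I S := by
    rw [sum_mA, ← Finset.sum_filter_add_sum_filter_not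
      (univ.filter (fun S => Unc g (2 * r) lp S I ∧ S ∩ I ∈ W)) (fun S => Unc g (2 * r) lpp S T)]
    rw [Finset.filter_filter, Finset.filter_filter]
  linarith

/-- The mixture kernel of the level step. -/
noncomputable def rho (g : Finset X → ℝ) (r lpp lp l ε Vp Lam : ℝ) (T B : Finset X) : ℝ :=
  (1 - ε) * hh g r lpp lp l T B / max (vv g (2 * r) lpp lp T) Vp +
    ε * (if B ≠ ∅ ∧ Disjoint B T then score g (2 * r) B T else 0) / max (phiA g (3 * r) T) Lam

lemma hh_nonneg (hg : ∀ S, 0 ≤ g S) {r : ℝ} (hr : 0 ≤ r) (lpp lp l : ℝ) (T B : Finset X) :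
    0 ≤ hh g r lpp lp l T B :=
  Finset.sum_nonneg (fun S _ =>
    mul_nonneg (hg S) (mul_nonneg (pow_nonneg hr _) (pow_nonneg (by positivity) _)))

lemma rho_nonneg (hg : ∀ S, 0 ≤ g S) {r lpp lp l ε Vp Lam : ℝ} (hr : 0 ≤ r) (hε0 : 0 ≤ ε)
    (hε1 : ε ≤ 1) (hVp : 0 < Vp) (hLam : 0 < Lam) (T B : Finset X) :
    0 ≤ rho g r lpp lp l ε Vp Lam T B := by
  unfold rho
  have h1 : 0 < max (vv g (2 * r) lpp lp T) Vp := lt_max_of_lt_right hVp
  have h2 : 0 < max (phiA g (3 * r) T) Lam := lt_max_of_lt_right hLam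
  refine add_nonneg (div_nonneg (mul_nonneg (by linarith) (hh_nonneg hg hr _ _ _ _ _)) h1.le)
    (div_nonneg (mul_nonneg hε0 ?_) h2.le)
  split_ifs
  · exact score_nonneg hg (by positivity) _ _
  · exact le_rfl

lemma hh_ne_zero_disjoint {r lpp lp l : ℝ} {T B : Finset X} (h : hh g r lpp lp l T B ≠ 0) :
    ∃ S, g S ≠ 0 ∧ B ⊆ S \ T := by
  unfold hh at h
  obtain ⟨S, hS, hne⟩ := Finset.exists_ne_zero_of_sum_ne_zero h
  refine ⟨S, left_ne_zero_of_mul hne, ?_⟩
  exact (Finset.mem_filter.mp hS).2.2.2.trans (Hi_subset _ _ _ _)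

lemma rho_disjoint {r lpp lp l ε Vp Lam : ℝ} {T B : Finset X}
    (h : rho g r lpp lp l ε Vp Lam T B ≠ 0) : Disjoint T B := by
  unfold rho at h
  by_cases h1 : hh g r lpp lp l T B = 0
  · rw [h1, mul_zero, zero_div, zero_add] at h
    by_cases hc : B ≠ ∅ ∧ Disjoint B T
    · exact hc.2.symm
    · rw [if_neg hc] at h
      simp at h
  · obtain ⟨S, _, hB⟩ := hh_ne_zero_disjoint h1
    rw [Finset.disjoint_left]
    intro z hz hzB
    exact (Finset.mem_sdiff.mp (hB hzB)).2 hz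

lemma score_ne_zero {b : ℝ} {B T : Finset X} (h : score g b B T ≠ 0) : ∃ S, g S ≠ 0 ∧ B ⊆ S := by
  unfold score at h
  obtain ⟨S, hS, hne⟩ := Finset.exists_ne_zero_of_sum_ne_zero h
  exact ⟨S, left_ne_zero_of_mul hne, (Finset.mem_filter.mp hS).2⟩

lemma rho_card {n : ℕ} (hs : ∀ S : Finset X, S.card ≠ n → g S = 0) {r lpp lp l ε Vp Lam : ℝ}
    {T B : Finset X} (h : rho g r lpp lp l ε Vp Lam T B ≠ 0) : B.card ≤ n := by
  have key : ∀ S, g S ≠ 0 → B ⊆ S → B.card ≤ n := by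
    intro S hS hB
    have hc : S.card = n := by
      by_contra hc
      exact hS (hs S hc)
    rw [← hc]
    exact Finset.card_le_card hB
  unfold rho at h
  by_cases h1 : hh g r lpp lp l T B = 0
  · rw [h1, mul_zero, zero_div, zero_add] at h
    by_cases hc : B ≠ ∅ ∧ Disjoint B T
    · rw [if_pos hc] at h
      have h3 : score g (2 * r) B T ≠ 0 := by
        intro h0
        rw [h0] at h
        simp at h
      obtain ⟨S, hS, hB⟩ := score_ne_zero h3
      exact key S hS hB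
    · rw [if_neg hc] at h
      simp at h
  · obtain ⟨S, hS, hB⟩ := hh_ne_zero_disjoint h1
    exact key S hS (hB.trans Finset.sdiff_subset)

/-- The kernel is sub-Markov at cost `r`. -/
theorem rho_sum (hg : ∀ S, 0 ≤ g S) {r lpp lp l ε Vp Lam : ℝ} (hr : 0 ≤ r) (hε0 : 0 ≤ ε)
    (hε1 : ε ≤ 1) (hVp : 0 < Vp) (hLam : 0 < Lam) (hl : l ≤ lp) (T : Finset X) :
    ∑ B, r ^ B.card * rho g r lpp lp l ε Vp Lam T B ≤ 1 := by
  set D1 := max (vv g (2 * r) lpp lp T) Vp with hD1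
  set D2 := max (phiA g (3 * r) T) Lam with hD2
  have h1 : 0 < D1 := lt_max_of_lt_right hVp
  have h2 : 0 < D2 := lt_max_of_lt_right hLam
  have e : ∀ B, r ^ B.card * rho g r lpp lp l ε Vp Lam T B =
      (1 - ε) / D1 * (r ^ B.card * hh g r lpp lp l T B) +
      ε / D2 * (r ^ B.card * (if B ≠ ∅ ∧ Disjoint B T then score g (2 * r) B T else 0)) := by
    intro B
    unfold rho
    rw [← hD1, ← hD2]
    field_simp
  rw [Finset.sum_congr rfl (fun B _ => e B), Finset.sum_add_distrib, ← Finset.mul_sum,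
    ← Finset.mul_sum, sum_hh hl]
  have h3 : ∑ B, r ^ B.card * (if B ≠ ∅ ∧ Disjoint B T then score g (2 * r) B T else 0) ≤
      phiA g (3 * r) T := by
    refine le_trans (le_of_eq ?_) (batch_sum hg hr T)
    rw [Finset.sum_filter]
    refine Finset.sum_congr rfl (fun B _ => ?_)
    split_ifs <;> simp
  have h4 : vv g (2 * r) lpp lp T ≤ D1 := le_max_left _ _
  have h5 : phiA g (3 * r) T ≤ D2 := le_max_left _ _
  have h6 : (1 - ε) / D1 * vv g (2 * r) lpp lp T ≤ 1 - ε := by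
    rw [div_mul_eq_mul_div, div_le_iff₀ h1]
    exact mul_le_mul_of_nonneg_left h4 (by linarith)
  have h7 : ε / D2 * ∑ B, r ^ B.card * (if B ≠ ∅ ∧ Disjoint B T then score g (2 * r) B T else 0)
      ≤ ε := by
    rw [div_mul_eq_mul_div, div_le_iff₀ h2]
    exact mul_le_mul_of_nonneg_left (h3.trans h5) hε0
  linarith

/-- The batch part of the kernel. -/
lemma rho_ge_batch (hg : ∀ S, 0 ≤ g S) {r lpp lp l ε Vp Lam : ℝ} (hr : 0 ≤ r) (hε0 : 0 ≤ ε)
    (hε1 : ε ≤ 1) (hVp : 0 < Vp) (hLam : 0 < Lam) {T B : Finset X}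
    (hΛ : phiA g (3 * r) T ≤ Lam) (hB : B ≠ ∅) (hd : Disjoint B T) :
    ε * score g (2 * r) B T / Lam ≤ rho g r lpp lp l ε Vp Lam T B := by
  unfold rho
  rw [if_pos ⟨hB, hd⟩, max_eq_right hΛ]
  have h1 : 0 < max (vv g (2 * r) lpp lp T) Vp := lt_max_of_lt_right hVp
  have : 0 ≤ (1 - ε) * hh g r lpp lp l T B / max (vv g (2 * r) lpp lp T) Vp :=
    div_nonneg (mul_nonneg (by linarith) (hh_nonneg hg hr _ _ _ _ _)) h1.le
  linarith

/-- The main part of the kernel. -/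
lemma rho_ge_main (hg : ∀ S, 0 ≤ g S) {r lpp lp l ε Vp Lam : ℝ} (hr : 0 ≤ r) (hε0 : 0 ≤ ε)
    (hε1 : ε ≤ 1) (hVp : 0 < Vp) (hLam : 0 < Lam) {T B : Finset X}
    (hV : vv g (2 * r) lpp lp T ≤ Vp) :
    (1 - ε) * hh g r lpp lp l T B / Vp ≤ rho g r lpp lp l ε Vp Lam T B := by
  unfold rho
  rw [max_eq_right hV]
  have h2 : 0 < max (phiA g (3 * r) T) Lam := lt_max_of_lt_right hLam
  have : 0 ≤ ε * (if B ≠ ∅ ∧ Disjoint B T then score g (2 * r) B T else 0) /
      max (phiA g (3 * r) T) Lam := by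
    refine div_nonneg (mul_nonneg hε0 ?_) h2.le
    split_ifs
    · exact score_nonneg hg (by positivity) _ _
    · exact le_rfl
  linarith

end Vale.Agent.Lib.P034U
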