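import Mathlib
import Vale.Agent.Lib.P034.Chain6

/-!
The numbers of the stationary level induction: the scale exponents, the thresholds and the
inequalities used in one step, with `j = i + 2` the level, `u = xx n i`, `D = xx n (i + 1)` and
`Y = xx n (i + 2)`.
-/

namespace Vale.Agent.Lib.P034U
open Vale.Agent.Lib.P034

/-- The exponents of the scales: `Nn n j = 4 ^ xx n j`. -/
def xx (n : ℕ) : ℕ → ℕ
  | 0 => 7 * n
  | j + 1 => 2 ^ (xx n j - 1)

lemma succ_le_two_pow_pred {x : ℕ} (hx : 3 ≤ x) : x + 1 ≤ 2 ^ (x - 1) := by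
  induction x, hx using Nat.le_induction with
  | base => norm_num
  | succ x hx ih =>
    have e : x + 1 - 1 = (x - 1) + 1 := by omega
    rw [e, pow_succ]
    omega

lemma xx_lower {n : ℕ} (hn : 0 < n) (j : ℕ) : 7 * n + j ≤ xx n j := by
  induction j with
  | zero => simp [xx]
  | succ j ih =>
    have h3 : 3 ≤ xx n j := by omega
    have h := succ_le_two_pow_pred h3
    simp only [xx]
    omega

lemma xx_le_succ {n : ℕ} (hn : 0 < n) (j : ℕ) : xx n j ≤ xx n (j + 1) := by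
  have h := xx_lower hn j
  have h3 : 3 ≤ xx n j := by omega
  have h' := succ_le_two_pow_pred h3
  simp only [xx]
  omega

lemma xx_mono {n : ℕ} (hn : 0 < n) {j j' : ℕ} (h : j ≤ j') : xx n j ≤ xx n j' := by
  induction j', h using Nat.le_induction with
  | base => exact le_rfl
  | succ m _ ih => exact ih.trans (xx_le_succ hn m)

lemma sq_le_two_pow_pred {u : ℕ} (hu : 7 ≤ u) : u * u ≤ 2 ^ (u - 1) := by
  induction u, hu using Nat.le_induction with
  | base => norm_num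
  | succ x hx ih =>
    have e : x + 1 - 1 = (x - 1) + 1 := by omega
    rw [e, pow_succ]
    nlinarith

lemma xx_one_ge {n : ℕ} (hn : 0 < n) : 64 ≤ xx n 1 := by
  simp only [xx]
  calc 64 = 2 ^ 6 := by norm_num
    _ ≤ 2 ^ (7 * n - 1) := Nat.pow_le_pow_right (by norm_num) (by omega)

lemma xx_ge_64 {n i : ℕ} (hn : 0 < n) (hi : 1 ≤ i) : 64 ≤ xx n i :=
  (xx_one_ge hn).trans (xx_mono hn hi)

/-- The scales are powers of four. -/
lemma Nn_eq {n : ℕ} (hn : 0 < n) (j : ℕ) : Nn n j = 4 ^ xx n j := by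
  induction j with
  | zero =>
    simp only [Nn, xx]
    rw [show (4 : ℕ) = 2 ^ 2 by norm_num, ← pow_mul]
    congr 1
    ring
  | succ j ih =>
    have h1 : 1 ≤ xx n j := by
      have := xx_lower hn j
      omega
    have hs : Nat.sqrt (4 ^ xx n j) = 2 ^ xx n j := by
      have : (4 : ℕ) ^ xx n j = 2 ^ xx n j * 2 ^ xx n j := by
        rw [← mul_pow]
        norm_num
      rw [this, Nat.sqrt_eq]
    simp only [Nn, xx]
    rw [ih, hs, show (4 : ℕ) = 2 ^ 2 by norm_num, ← pow_mul]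
    congr 1
    rw [show (2 : ℕ) * 2 ^ (xx n j - 1) = 2 ^ (xx n j - 1 + 1) by rw [pow_succ]; ring]
    congr 1
    omega

/-- The exponents of the thresholds. -/
def ee (n j : ℕ) : ℕ := n * (2 * xx n j + 1) + j + 6 + 2 * n

/-- The thresholds. -/
noncomputable def lamU (n j : ℕ) : ℝ := (1 / 2) ^ ee n j

/-- The losses at a level. -/
noncomputable def epsU (j : ℕ) : ℝ := (1 / 2) ^ (j + 4)

/-- The gains at a level. -/
noncomputable def betaU (j : ℕ) : ℝ := 1 + (1 / 2) ^ (j + 2)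

lemma lamU_pos (n j : ℕ) : 0 < lamU n j := by unfold lamU; positivity

lemma epsU_pos (j : ℕ) : 0 < epsU j := by unfold epsU; positivity

lemma epsU_le (j : ℕ) : epsU j ≤ 1 / 16 := by
  unfold epsU
  calc ((1 : ℝ) / 2) ^ (j + 4) = (1 / 2) ^ j * (1 / 16) := by rw [pow_add]; norm_num
    _ ≤ 1 * (1 / 16) := by
        gcongr
        exact pow_le_one₀ (by norm_num) (by norm_num)
    _ = 1 / 16 := by norm_num

lemma one_le_betaU (j : ℕ) : 1 ≤ betaU j := by
  unfold betaU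
  have : (0 : ℝ) < (1 / 2) ^ (j + 2) := by positivity
  linarith

lemma betaU_le_two (j : ℕ) : betaU j ≤ 2 := by
  unfold betaU
  have : ((1 : ℝ) / 2) ^ (j + 2) ≤ 1 := pow_le_one₀ (by norm_num) (by norm_num)
  linarith

lemma ee_mono {n : ℕ} (hn : 0 < n) {j j' : ℕ} (h : j ≤ j') : ee n j ≤ ee n j' := by
  unfold ee
  have := xx_mono hn h
  have h2 : n * (2 * xx n j + 1) ≤ n * (2 * xx n j' + 1) :=
    Nat.mul_le_mul_left _ (by omega)
  omega

/-- The thresholds decrease with the level. -/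
lemma lamU_anti {n : ℕ} (hn : 0 < n) {j j' : ℕ} (h : j ≤ j') : lamU n j' ≤ lamU n j := by
  unfold lamU
  exact pow_le_pow_of_le_one (by norm_num) (by norm_num) (ee_mono hn h)

/-- Below the threshold, the mass of the small atoms is negligible. -/
lemma num_eps {n : ℕ} (hn : 0 < n) (j : ℕ) :
    ((Nn n j : ℝ) + 1) ^ n * lamU n j ≤ epsU j * vL n j := by
  have hw := wn_pos hn
  set x := xx n j with hx
  have h1 : ((Nn n j : ℝ) + 1) ≤ 2 ^ (2 * x + 1) := by
    rw [Nn_eq hn j, ← hx]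
    push_cast
    have : ((4 : ℝ)) ^ x = 2 ^ (2 * x) := by
      rw [pow_mul]; norm_num
    rw [this, pow_succ]
    have h2 : (1 : ℝ) ≤ 2 ^ (2 * x) := one_le_pow₀ (by norm_num)
    linarith
  have h2 : ((Nn n j : ℝ) + 1) ^ n ≤ (2 ^ (2 * x + 1)) ^ n := by
    gcongr
  have hl : lamU n j = (1 / 2) ^ (n * (2 * x + 1)) * (1 / 2) ^ (j + 6 + 2 * n) := by
    unfold lamU ee
    rw [← pow_add, ← hx]
    congr 1
    ring
  have h3 : ((Nn n j : ℝ) + 1) ^ n * lamU n j ≤ (1 / 2) ^ (j + 6 + 2 * n) := by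
    rw [hl]
    have e1 : ((2 : ℝ) ^ (2 * x + 1)) ^ n * (1 / 2) ^ (n * (2 * x + 1)) = 1 := by
      rw [← pow_mul, mul_comm (2 * x + 1) n, ← mul_pow]
      norm_num
    calc ((Nn n j : ℝ) + 1) ^ n * ((1 / 2) ^ (n * (2 * x + 1)) * (1 / 2) ^ (j + 6 + 2 * n))
        ≤ (2 ^ (2 * x + 1)) ^ n * ((1 / 2) ^ (n * (2 * x + 1)) * (1 / 2) ^ (j + 6 + 2 * n)) := by
          gcongr
      _ = ((2 : ℝ) ^ (2 * x + 1)) ^ n * (1 / 2) ^ (n * (2 * x + 1)) * (1 / 2) ^ (j + 6 + 2 * n) := by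
          ring
      _ = (1 / 2) ^ (j + 6 + 2 * n) := by rw [e1, one_mul]
  have h4 : ((1 : ℝ) / 2) ^ (2 * n + 1) ≤ wn n := by
    have h5 := wn_inv_le hn
    have h6 : ((1 : ℝ) / 2) ^ (2 * n + 1) = 1 / 2 ^ (2 * n + 1) := by rw [one_div_pow]
    rw [h6]
    rw [div_le_iff₀ (by positivity)]
    rw [div_le_iff₀ hw] at h5
    linarith
  have h5 : (1 : ℝ) / 2 ≤ 1 - (1 / 2) ^ (j + 1) := by
    have : ((1 : ℝ) / 2) ^ (j + 1) ≤ 1 / 2 := by
      rw [pow_succ]
      have : ((1 : ℝ) / 2) ^ j ≤ 1 := pow_le_one₀ (by norm_num) (by norm_num)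
      linarith
    linarith
  have h6 : ((1 : ℝ) / 2) ^ (2 * n + 1) * (1 / 2) ≤ vL n j := by
    unfold vL
    exact mul_le_mul h4 h5 (by norm_num) hw.le
  calc ((Nn n j : ℝ) + 1) ^ n * lamU n j ≤ (1 / 2) ^ (j + 6 + 2 * n) := h3
    _ = epsU j * ((1 / 2) ^ (2 * n + 1) * (1 / 2)) := by
        unfold epsU
        rw [← pow_succ, ← pow_add]
        congr 1
        ring
    _ ≤ epsU j * vL n j := mul_le_mul_of_nonneg_left h6 (epsU_pos j).le

/-- The gain available from one level to the next. -/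
lemma num_ratio {n : ℕ} (hn : 0 < n) (j : ℕ) :
    betaU (j + 1) * vL n j ≤ (1 - epsU (j + 1)) ^ 3 * vL n (j + 1) := by
  have hw := wn_pos hn
  set a : ℝ := (1 / 2) ^ (j + 2) with ha
  have ha0 : 0 < a := by positivity
  have ha1 : a ≤ 1 / 4 := by
    rw [ha, pow_add]
    have : ((1 : ℝ) / 2) ^ j ≤ 1 := pow_le_one₀ (by norm_num) (by norm_num)
    norm_num
    nlinarith
  have e1 : vL n j = wn n * (1 - 2 * a) := by
    unfold vL
    rw [ha, show j + 2 = (j + 1) + 1 by ring, pow_succ ((1 : ℝ) / 2) (j + 1)]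
    ring
  have e2 : vL n (j + 1) = wn n * (1 - a) := by
    unfold vL
    rfl
  have e3 : epsU (j + 1) = a / 8 := by
    unfold epsU
    rw [ha, show j + 1 + 4 = (j + 2) + 3 by ring, pow_add]
    norm_num
    ring
  have e4 : betaU (j + 1) = 1 + a / 2 := by
    unfold betaU
    rw [ha, show j + 1 + 2 = (j + 2) + 1 by ring, pow_succ]
    ring
  rw [e1, e2, e3, e4]
  have h3 : 1 - 3 * (a / 8) ≤ (1 - a / 8) ^ 3 := by
    nlinarith [sq_nonneg (a / 8), mul_pos ha0 ha0, mul_pos (mul_pos ha0 ha0) ha0]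
  have h4 : (1 + a / 2) * (1 - 2 * a) ≤ (1 - 3 * (a / 8)) * (1 - a) := by
    nlinarith [mul_pos ha0 ha0]
  have h5 : (1 - 3 * (a / 8)) * (1 - a) ≤ (1 - a / 8) ^ 3 * (1 - a) :=
    mul_le_mul_of_nonneg_right h3 (by linarith)
  calc (1 + a / 2) * (wn n * (1 - 2 * a)) = wn n * ((1 + a / 2) * (1 - 2 * a)) := by ring
    _ ≤ wn n * ((1 - a / 8) ^ 3 * (1 - a)) := mul_le_mul_of_nonneg_left (h4.trans h5) hw.le
    _ = (1 - a / 8) ^ 3 * (wn n * (1 - a)) := by ring

/-- The length of the crude noise step at the level `i + 2`. -/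
def tK5 (n i : ℕ) : ℕ := n * (4 * xx n (i + 1) + n + (i + 2) + 20)

/-- The crude bound on the potential at the level `i + 2`. -/
def LamN (n i : ℕ) : ℕ := 2 * (tK5 n i + 1) ^ n + 1

/-- The number of hit sets at the level `i + 2`. -/
def t0 (n i : ℕ) : ℕ := 2 ^ (n + 2 * (i + 2) + 9 + ee n i) * LamN n i

/-- The hit threshold at the level `i + 2`. -/
noncomputable def tauU (n i : ℕ) : ℝ := epsU (i + 2) ^ 2 * lamU n i / (2 * (LamN n i : ℝ))

/-- The weight of one batch step at the level `i + 2`. -/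
noncomputable def etaU (n i : ℕ) : ℝ := epsU (i + 2) * lamU n (i + 2) / (LamN n i : ℝ)

/-- The length of the chain at the level `i + 2`. -/
def kU (n i : ℕ) : ℕ := Nn n (i + 1) / n

/-- The chain mass at the level `i + 2`. -/
noncomputable def MU (n i : ℕ) : ℝ := etaU n i ^ t0 n i * betaU (i + 2) ^ (kU n i - t0 n i)

/-- The target weight at the level `i + 2`. -/
noncomputable def gammaU (n i : ℕ) : ℝ := (1 / 2) ^ n * lamU n (i + 2)

/-- The rounding parameter at the level `i + 2`. -/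
noncomputable def lamR (n i : ℕ) : ℝ := (1 / 2) ^ (n + (i + 2) + 7)

lemma LamN_pos (n i : ℕ) : 0 < LamN n i := by unfold LamN; omega

lemma t0_pos (n i : ℕ) : 0 < t0 n i := by
  unfold t0
  exact Nat.mul_pos (by positivity) (LamN_pos n i)

lemma tauU_pos (n i : ℕ) : 0 < tauU n i := by
  unfold tauU
  have h1 := epsU_pos (i + 2)
  have h2 := lamU_pos n i
  have h3 : (0 : ℝ) < LamN n i := by exact_mod_cast LamN_pos n i
  positivity

lemma etaU_pos (n i : ℕ) : 0 < etaU n i := by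
  unfold etaU
  have h1 := epsU_pos (i + 2)
  have h2 := lamU_pos n (i + 2)
  have h3 : (0 : ℝ) < LamN n i := by exact_mod_cast LamN_pos n i
  positivity

lemma etaU_le_one (n i : ℕ) : etaU n i ≤ 1 := by
  unfold etaU
  have h3 : (1 : ℝ) ≤ LamN n i := by exact_mod_cast LamN_pos n i
  rw [div_le_one (by linarith)]
  have h1 := epsU_le (i + 2)
  have h2 : lamU n (i + 2) ≤ 1 := by
    unfold lamU
    exact pow_le_one₀ (by norm_num) (by norm_num)
  have h0 := epsU_pos (i + 2)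
  have h4 := lamU_pos n (i + 2)
  nlinarith

/-- The number of hit sets is exactly `2 ^ n / tau`. -/
lemma two_pow_div_tauU (n i : ℕ) : (2 : ℝ) ^ n / tauU n i = t0 n i := by
  have h3 : (0 : ℝ) < LamN n i := by exact_mod_cast LamN_pos n i
  set m := 2 * (i + 2) + 8 + ee n i with hm
  have e1 : epsU (i + 2) ^ 2 * lamU n i = (1 / 2) ^ m := by
    unfold epsU lamU
    rw [← pow_mul, ← pow_add, hm]
    congr 1
    ring
  have e2 : n + 2 * (i + 2) + 9 + ee n i = n + 1 + m := by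
    rw [hm]
    ring
  unfold tauU t0
  rw [e1, e2]
  clear hm
  clear_value m
  push_cast
  have e3 : ((2 : ℝ)) ^ (n + 1 + m) = 2 ^ n * 2 * 2 ^ m := by
    rw [pow_add, pow_add]
    ring
  rw [e3, one_div_pow]
  have h2 : ((2 : ℝ) ^ m) ≠ 0 := by positivity
  field_simp

/-- The exponent of the bound for `LamN`. -/
def LL (n i : ℕ) : ℕ := n * (n + xx n i + 3) + 2

/-- The exponent of the bound for `t0`. -/
def ff (n i : ℕ) : ℕ := n + 2 * (i + 2) + 9 + ee n i + LL n i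

/-- The main room in the tower: the next exponent is far above all the small quantities. -/
lemma gg_le {n i : ℕ} (hn : 0 < n) (hi : 1 ≤ i) :
    3 * n * xx n i + n * n + 9 * n + 4 * i + 30 ≤ xx n (i + 1) := by
  set u := xx n i with hu
  have h1 : 7 * n + i ≤ u := xx_lower hn i
  have h64 : 64 ≤ u := xx_ge_64 hn hi
  have h2 : u * u ≤ 2 ^ (u - 1) := sq_le_two_pow_pred (by omega)
  have h3 : xx n (i + 1) = 2 ^ (u - 1) := rfl
  rw [h3]
  refine le_trans ?_ h2
  nlinarith [Nat.mul_le_mul_left u h1, Nat.mul_le_mul h1 h1]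

lemma ff_add_le {n i : ℕ} (hn : 0 < n) (hi : 1 ≤ i) : 2 * n + i + 7 + ff n i ≤ xx n (i + 1) := by
  have h := gg_le hn hi
  have e : 2 * n + i + 7 + ff n i + 2 = 3 * n * xx n i + n * n + 9 * n + 4 * i + 30 := by
    unfold ff LL ee
    ring
  omega

lemma LamN_le {n i : ℕ} (hn : 0 < n) (hi : 1 ≤ i) : LamN n i ≤ 2 ^ LL n i := by
  set u := xx n i with hu
  have h1 : 7 * n + i ≤ u := xx_lower hn i
  have h64 : 64 ≤ u := xx_ge_64 hn hi
  have hD : xx n (i + 1) = 2 ^ (u - 1) := rfl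
  have h4D : 4 * xx n (i + 1) = 2 ^ (u + 1) := by
    rw [hD, show u + 1 = (u - 1) + 2 by omega, pow_add]
    ring
  have hrest : n + (i + 2) + 20 ≤ 2 ^ (u + 1) := by
    have ha : u < 2 ^ u := Nat.lt_two_pow_self
    have hb : 2 ^ 6 ≤ 2 ^ u := Nat.pow_le_pow_right (by norm_num) (by omega)
    have hc : 2 ^ (u + 1) = 2 * 2 ^ u := by rw [pow_succ]; ring
    norm_num at hb
    omega
  have ht : tK5 n i + 1 ≤ 2 ^ (n + u + 3) := by
    unfold tK5
    have hn2 : n ≤ 2 ^ n := Nat.lt_two_pow_self.le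
    have h5 : 4 * xx n (i + 1) + n + (i + 2) + 20 ≤ 2 ^ (u + 2) := by
      rw [h4D, show u + 2 = (u + 1) + 1 by ring, pow_succ]
      omega
    have h6 : n * (4 * xx n (i + 1) + n + (i + 2) + 20) ≤ 2 ^ n * 2 ^ (u + 2) :=
      Nat.mul_le_mul hn2 h5
    have h7 : 2 ^ (n + u + 3) = 2 * (2 ^ n * 2 ^ (u + 2)) := by
      rw [show n + u + 3 = (n + (u + 2)) + 1 by ring, pow_succ, pow_add]
      ring
    have h8 : 1 ≤ 2 ^ n * 2 ^ (u + 2) := Nat.mul_pos (by positivity) (by positivity)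
    omega
  have hp : (tK5 n i + 1) ^ n ≤ 2 ^ (n * (n + u + 3)) := by
    calc (tK5 n i + 1) ^ n ≤ (2 ^ (n + u + 3)) ^ n := Nat.pow_le_pow_left ht n
      _ = 2 ^ (n * (n + u + 3)) := by rw [← pow_mul, mul_comm]
  unfold LamN LL
  rw [← hu]
  have h9 : 2 ^ (n * (n + u + 3) + 2) = 4 * 2 ^ (n * (n + u + 3)) := by
    rw [pow_add]
    ring
  have h10 : 1 ≤ 2 ^ (n * (n + u + 3)) := Nat.one_le_two_pow
  omega

lemma t0_le {n i : ℕ} (hn : 0 < n) (hi : 1 ≤ i) : t0 n i ≤ 2 ^ ff n i := by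
  unfold t0 ff
  rw [pow_add 2 (n + 2 * (i + 2) + 9 + ee n i)]
  exact Nat.mul_le_mul_left _ (LamN_le hn hi)

/-- The hit family fits below the previous scale. -/
lemma n_mul_t0_le {n i : ℕ} (hn : 0 < n) (hi : 1 ≤ i) : n * t0 n i ≤ Nn n (i + 1) := by
  have h := ff_add_le hn hi
  rw [Nn_eq hn]
  have hn2 : n ≤ 2 ^ n := Nat.lt_two_pow_self.le
  calc n * t0 n i ≤ 2 ^ n * 2 ^ ff n i := Nat.mul_le_mul hn2 (t0_le hn hi)
    _ = 2 ^ (n + ff n i) := by rw [pow_add]
    _ ≤ 2 ^ (2 * xx n (i + 1)) := Nat.pow_le_pow_right (by norm_num) (by omega)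
    _ = 4 ^ xx n (i + 1) := by rw [pow_mul]; norm_num

/-- The exponent used for the batch steps. -/
def AA (n i : ℕ) : ℕ := (i + 2) + 4 + ee n (i + 2) + LL n i

/-- The target for the logarithm of the chain mass. -/
def K0 (n i : ℕ) : ℕ := 4 * xx n (i + 2) + (n + (i + 2) + 7) + 3

/-- The chain is long enough. -/
lemma chain_long {n i : ℕ} (hn : 0 < n) (hi : 1 ≤ i) :
    2 ^ ((i + 2) + 2) * (K0 n i + t0 n i * AA n i) + t0 n i ≤ kU n i := by
  set D := xx n (i + 1) with hD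
  set Y := xx n (i + 2) with hY
  set u := xx n i with hu
  have hg := gg_le hn hi
  rw [← hu, ← hD] at hg
  have hYD : Y = 2 ^ (D - 1) := rfl
  have hD7 : 7 ≤ D := by
    have := xx_lower hn (i + 1)
    omega
  have hDY : D ≤ Y := xx_le_succ hn (i + 1)
  have ht1 : 1 ≤ t0 n i := t0_pos n i
  -- the bracket is at most `t0 * Y * (2 n + 5)`
  have hA : K0 n i + t0 n i * AA n i ≤ t0 n i * (Y * (2 * n + 5)) := by
    have h1 : K0 n i + AA n i ≤ Y * (2 * n + 5) := by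
      have e1 : K0 n i + AA n i =
          n * (2 * Y) + 4 * Y + (4 * n + 3 * i + 26) + LL n i := by
        unfold K0 AA ee
        rw [← hY]
        ring
      rw [e1]
      have e2 : LL n i = n * n + n * u + 3 * n + 2 := by
        unfold LL
        rw [← hu]
        ring
      have h2 : (4 * n + 3 * i + 26) + LL n i ≤ Y := by
        rw [e2]
        have : n * u ≤ 3 * n * u := by nlinarith
        omega
      nlinarith
    calc K0 n i + t0 n i * AA n i ≤ t0 n i * K0 n i + t0 n i * AA n i := by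
          have := Nat.mul_le_mul_right (K0 n i) ht1
          omega
      _ = t0 n i * (K0 n i + AA n i) := by ring
      _ ≤ _ := Nat.mul_le_mul_left _ h1
  have hY1 : 1 ≤ Y * (2 * n + 5) := by
    have : 1 ≤ Y := by omega
    nlinarith
  have hB : 2 ^ ((i + 2) + 2) * (K0 n i + t0 n i * AA n i) + t0 n i ≤
      2 ^ ((i + 2) + 3) * (t0 n i * (Y * (2 * n + 5))) := by
    have h1 : t0 n i ≤ t0 n i * (Y * (2 * n + 5)) := Nat.le_mul_of_pos_right _ (by omega)
    have h2 : 1 ≤ 2 ^ ((i + 2) + 2) := Nat.one_le_two_pow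
    have e : 2 ^ ((i + 2) + 3) = 2 * 2 ^ ((i + 2) + 2) := by
      rw [show (i + 2) + 3 = ((i + 2) + 2) + 1 by ring, pow_succ]
      ring
    rw [e]
    nlinarith [Nat.mul_le_mul_left (2 ^ ((i + 2) + 2)) hA]
  refine hB.trans ?_
  unfold kU
  rw [Nat.le_div_iff_mul_le hn, Nn_eq hn, ← hD]
  have hnm : n * (2 * n + 5) ≤ 2 ^ (2 * n + 3) := by
    have h1 : n ≤ 2 ^ n := Nat.lt_two_pow_self.le
    have h2 : 2 * n + 5 ≤ 2 ^ (n + 3) := by
      have h3 : n + 1 ≤ 2 ^ n := Nat.lt_two_pow_self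
      rw [pow_add]
      omega
    calc n * (2 * n + 5) ≤ 2 ^ n * 2 ^ (n + 3) := Nat.mul_le_mul h1 h2
      _ = 2 ^ (2 * n + 3) := by rw [← pow_add]; congr 1; ring
  have ht := t0_le hn hi
  have hadd : 2 * n + i + 7 + ff n i ≤ D := ff_add_le hn hi
  calc 2 ^ ((i + 2) + 3) * (t0 n i * (Y * (2 * n + 5))) * n
      = 2 ^ ((i + 2) + 3) * t0 n i * Y * (n * (2 * n + 5)) := by ring
    _ ≤ 2 ^ ((i + 2) + 3) * 2 ^ ff n i * 2 ^ (D - 1) * 2 ^ (2 * n + 3) := by
        rw [hYD]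
        gcongr
    _ = 2 ^ ((i + 2) + 3 + ff n i + (D - 1) + (2 * n + 3)) := by
        rw [← pow_add, ← pow_add, ← pow_add]
    _ ≤ 2 ^ (2 * D) := Nat.pow_le_pow_right (by norm_num) (by omega)
    _ = 4 ^ D := by rw [pow_mul]; norm_num

/-- The chain mass is large. -/
lemma two_pow_K0_le_MU {n i : ℕ} (hn : 0 < n) (hi : 1 ≤ i) : (2 : ℝ) ^ K0 n i ≤ MU n i := by
  have hlong := chain_long hn hi
  have hle : t0 n i ≤ kU n i := by
    have : 1 ≤ 2 ^ ((i + 2) + 2) * (K0 n i + t0 n i * AA n i) + 0 + 0 ∨ True := Or.inr trivial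
    omega
  have hk : 2 ^ ((i + 2) + 2) * (K0 n i + t0 n i * AA n i) ≤ kU n i - t0 n i := by omega
  have h1 : (2 : ℝ) ^ (K0 n i + t0 n i * AA n i) ≤ betaU (i + 2) ^ (kU n i - t0 n i) := by
    have := one_add_inv_pow_ge (2 ^ ((i + 2) + 2)) _ _ (by positivity) hk
    have e : betaU (i + 2) = 1 + 1 / (((2 ^ ((i + 2) + 2) : ℕ)) : ℝ) := by
      unfold betaU
      push_cast
      rw [one_div_pow]
    rw [e]
    exact this
  have hLam : (LamN n i : ℝ) ≤ 2 ^ LL n i := by exact_mod_cast LamN_le hn hi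
  have hLam0 : (0 : ℝ) < LamN n i := by exact_mod_cast LamN_pos n i
  have h2 : ((1 : ℝ) / 2) ^ AA n i ≤ etaU n i := by
    unfold etaU epsU lamU AA
    rw [le_div_iff₀ hLam0]
    calc ((1 : ℝ) / 2) ^ ((i + 2) + 4 + ee n (i + 2) + LL n i) * LamN n i
        ≤ (1 / 2) ^ ((i + 2) + 4 + ee n (i + 2) + LL n i) * 2 ^ LL n i := by gcongr
      _ = (1 / 2) ^ ((i + 2) + 4) * (1 / 2) ^ ee n (i + 2) := by
          rw [pow_add ((1 : ℝ) / 2) ((i + 2) + 4 + ee n (i + 2)), pow_add ((1 : ℝ) / 2) ((i + 2) + 4),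
            mul_assoc, mul_assoc, one_div_pow ((2 : ℝ)) (LL n i)]
          have : ((2 : ℝ) ^ LL n i) ≠ 0 := by positivity
          field_simp
  have h3 : ((1 : ℝ) / 2) ^ (t0 n i * AA n i) ≤ etaU n i ^ t0 n i := by
    calc ((1 : ℝ) / 2) ^ (t0 n i * AA n i) = ((1 / 2) ^ AA n i) ^ t0 n i := by
          rw [← pow_mul, mul_comm]
      _ ≤ _ := pow_le_pow_left₀ (by positivity) h2 _
  unfold MU
  calc (2 : ℝ) ^ K0 n i = (1 / 2) ^ (t0 n i * AA n i) * 2 ^ (K0 n i + t0 n i * AA n i) := by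
        rw [pow_add, one_div_pow]
        have : ((2 : ℝ) ^ (t0 n i * AA n i)) ≠ 0 := by positivity
        field_simp
    _ ≤ etaU n i ^ t0 n i * betaU (i + 2) ^ (kU n i - t0 n i) :=
        mul_le_mul h3 h1 (by positivity) (pow_nonneg (etaU_pos n i).le _)

/-- The rounding cost at the level `i + 2`, for every mass above the target. -/
lemma num_cost {n i : ℕ} (hn : 0 < n) (hi : 1 ≤ i) {M : ℝ} (hM : (2 : ℝ) ^ K0 n i ≤ M) :
    ((2 : ℝ) ^ Nn n (i + 2) / gammaU n i) ^ Nn n (i + 2) * Real.exp (-(lamR n i * (M - 1))) ≤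
      lamR n i := by
  set N := Nn n (i + 2) with hN
  set Y := xx n (i + 2) with hY
  set B := n + (i + 2) + 7 with hB
  have hNY : N = 4 ^ Y := Nn_eq hn (i + 2)
  have hg := gg_le hn hi
  have hDY : xx n (i + 1) ≤ Y := xx_le_succ hn (i + 1)
  have hY64 : 64 ≤ Y := xx_ge_64 hn (by omega)
  have hnY : n ≤ Y := by nlinarith [xx_lower hn (i + 2)]
  have h4Y : 4 * n + (i + 2) + 6 ≤ Y := by
    have : 4 * n + 3 * i + 30 ≤ xx n (i + 1) := by omega
    omega
  -- the exponent of the first factor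
  have hG : (2 : ℝ) ^ N / gammaU n i = 2 ^ (N + n + ee n (i + 2)) := by
    unfold gammaU lamU
    rw [one_div_pow, one_div_pow, pow_add, pow_add]
    field_simp
  have hYY : Y * Y ≤ 2 ^ Y * 2 ^ Y := by
    have : Y ≤ 2 ^ Y := Nat.lt_two_pow_self.le
    exact Nat.mul_le_mul this this
  have hY4 : 4 * Y ≤ 2 ^ Y := by
    have := succ_le_two_pow_pred (x := Y) (by omega)
    have h2 : 2 ^ Y = 2 * 2 ^ (Y - 1) := by
      rw [show Y = (Y - 1) + 1 by omega, pow_succ]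
      simp
      ring
    have h3 : Y * Y ≤ 2 ^ (Y - 1) := sq_le_two_pow_pred (by omega)
    nlinarith
  have hN2 : N = 2 ^ Y * 2 ^ Y := by
    rw [hNY, ← mul_pow]
    norm_num
  have he : n + ee n (i + 2) ≤ N := by
    unfold ee
    rw [← hY, hN2]
    nlinarith
  have hexp : N * (N + n + ee n (i + 2)) + B ≤ 2 ^ (4 * Y + 2) := by
    have h1 : N * (N + n + ee n (i + 2)) ≤ N * (2 * N) := Nat.mul_le_mul_left _ (by omega)
    have h2 : N * N = 2 ^ (4 * Y) := by
      rw [hN2]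
      rw [show 4 * Y = Y + Y + Y + Y by ring, pow_add, pow_add, pow_add]
      ring
    have h3 : B ≤ 2 ^ (4 * Y) := by
      have : B ≤ Y := by
        rw [hB]
        omega
      have h4 : Y ≤ 2 ^ Y := Nat.lt_two_pow_self.le
      have h5 : 2 ^ Y ≤ 2 ^ (4 * Y) := Nat.pow_le_pow_right (by norm_num) (by omega)
      omega
    have e : 2 ^ (4 * Y + 2) = 4 * 2 ^ (4 * Y) := by rw [pow_add]; ring
    nlinarith
  have hlam : lamR n i = (1 / 2) ^ B := rfl
  have hxpos : ((N * (N + n + ee n (i + 2)) + B : ℕ) : ℝ) ≤ lamR n i * (M - 1) := by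
    have h1 : (2 : ℝ) ^ (4 * Y + 3) ≤ lamR n i * M := by
      rw [hlam]
      have hM' : (2 : ℝ) ^ (4 * Y + 3 + B) ≤ M := by
        refine le_trans ?_ hM
        apply pow_le_pow_right₀ (by norm_num)
        unfold K0
        rw [← hY]
        omega
      calc (2 : ℝ) ^ (4 * Y + 3) = (1 / 2) ^ B * 2 ^ (4 * Y + 3 + B) := by
            rw [pow_add (2 : ℝ) (4 * Y + 3) B, one_div_pow]
            have : ((2 : ℝ) ^ B) ≠ 0 := by positivity
            field_simp
        _ ≤ _ := by gcongr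
    have h2 : lamR n i ≤ 1 := by
      rw [hlam]
      exact pow_le_one₀ (by norm_num) (by norm_num)
    have h3 : ((N * (N + n + ee n (i + 2)) + B : ℕ) : ℝ) ≤ 2 ^ (4 * Y + 2) := by
      exact_mod_cast hexp
    have h4 : (2 : ℝ) ^ (4 * Y + 3) = 2 * 2 ^ (4 * Y + 2) := by
      rw [pow_succ]
      ring
    have h5 : (1 : ℝ) ≤ 2 ^ (4 * Y + 2) := one_le_pow₀ (by norm_num)
    nlinarith
  have hexp2 := exp_neg_le_half_pow _ hxpos
  rw [hG, ← pow_mul]
  calc (2 : ℝ) ^ ((N + n + ee n (i + 2)) * N) * Real.exp (-(lamR n i * (M - 1)))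
      ≤ 2 ^ ((N + n + ee n (i + 2)) * N) * (1 / 2) ^ (N * (N + n + ee n (i + 2)) + B) := by
        gcongr
    _ = lamR n i := by
        rw [hlam, pow_add ((1 : ℝ) / 2), mul_comm N, ← mul_assoc, ← mul_pow]
        norm_num

lemma k5_aux (D B : ℕ) (hB : B ≤ D + 9) :
    2 ^ B * (2 * 2 ^ (4 * D) + B) + 1 ≤ 2 ^ (4 * D + B + 14) := by
  have h1 : D + 9 < 2 ^ (D + 9) := Nat.lt_two_pow_self
  have h2 : 2 ^ (D + 9) ≤ 2 ^ (4 * D + 12) := Nat.pow_le_pow_right (by norm_num) (by omega)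
  have h3 : 2 * 2 ^ (4 * D) ≤ 2 ^ (4 * D + 12) := by
    rw [pow_add]
    have : 1 ≤ 2 ^ (4 * D) := Nat.one_le_two_pow
    norm_num
    omega
  have h4 : 2 * 2 ^ (4 * D) + B ≤ 2 ^ (4 * D + 13) := by
    have e : 2 ^ (4 * D + 13) = 2 * 2 ^ (4 * D + 12) := by rw [pow_succ]; ring
    omega
  have h5 : 2 ^ B * (2 * 2 ^ (4 * D) + B) ≤ 2 ^ (4 * D + B + 13) := by
    calc 2 ^ B * (2 * 2 ^ (4 * D) + B) ≤ 2 ^ B * 2 ^ (4 * D + 13) := Nat.mul_le_mul_left _ h4
      _ = 2 ^ (4 * D + B + 13) := by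
          rw [← pow_add]
          congr 1
          ring
  have e : 2 ^ (4 * D + B + 14) = 2 * 2 ^ (4 * D + B + 13) := by rw [pow_succ]; ring
  have h6 : 1 ≤ 2 ^ (4 * D + B + 13) := Nat.one_le_two_pow
  omega

/-- The condition for the crude noise step at the level `i + 2`. -/
lemma num_k5 {n : ℕ} (hn : 0 < n) (i : ℕ) :
    2 ^ (n + (i + 2) + 7) * (2 * (Nn n (i + 1) * Nn n (i + 1)) + (n + (i + 2) + 7)) + 1 ≤
      2 ^ (tK5 n i / n + 1) := by
  have hN' : Nn n (i + 1) = 4 ^ xx n (i + 1) := Nn_eq hn (i + 1)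
  have hlow := xx_lower hn (i + 1)
  have ht : tK5 n i / n + 1 = 4 * xx n (i + 1) + (n + (i + 2) + 7) + 14 := by
    unfold tK5
    rw [Nat.mul_div_cancel_left _ hn]
    ring
  have h1 : Nn n (i + 1) * Nn n (i + 1) = 2 ^ (4 * xx n (i + 1)) := by
    rw [hN', ← pow_add, show (4 : ℕ) = 2 ^ 2 by norm_num, ← pow_mul]
    congr 1
    ring
  rw [ht, h1]
  exact k5_aux _ _ (by omega)

end Vale.Agent.Lib.P034U
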