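import Mathlib
import Vale.Agent.Lib.P034U.Num

/-!
All numerical hypotheses of one level step, in the convention: step from level `j` to level
`j + 1`, `j ≥ 2`.
-/

namespace Vale.Agent.Lib.P034U
open Vale.Agent.Lib.P034

/-- The thresholds in the indexing of the level statement: the level `j` uses `lamL n j` and
`lamL n (j + 1)`. -/
noncomputable def lamL (n j : ℕ) : ℝ := lamU n (j - 1)

lemma lamL_pos (n j : ℕ) : 0 < lamL n j := lamU_pos n _

lemma lamL_anti {n : ℕ} (hn : 0 < n) (j : ℕ) : lamL n (j + 1) ≤ lamL n j :=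
  lamU_anti hn (by omega)

lemma vL_pos {n : ℕ} (hn : 0 < n) (j : ℕ) : 0 < vL n j := by
  unfold vL
  have hw := wn_pos hn
  have h : ((1 : ℝ) / 2) ^ (j + 1) < 1 := pow_lt_one₀ (by norm_num) (by norm_num) (by omega)
  exact mul_pos hw (by linarith)

/-- The cost increments of the levels. -/
lemma cL_step (n j : ℕ) :
    cL n j + 2 * (1 / 2) ^ (n + j + 8) + 2 * (1 / 2) ^ (n + j + 8) = cL n (j + 1) := by
  unfold cL
  have e1 : ((1 : ℝ) / 2) ^ (n + j + 8) = (1 / 2) ^ n * (1 / 2) ^ j * (1 / 256) := by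
    rw [pow_add, pow_add]
    norm_num
  have e2 : ((1 : ℝ) / 2) ^ (n + 4) = (1 / 2) ^ n * (1 / 16) := by
    rw [pow_add]
    norm_num
  have e3 : ((1 : ℝ) / 2) ^ (j + 1) = (1 / 2) ^ j * (1 / 2) := by rw [pow_succ]
  have e4 : ((1 : ℝ) / 2) ^ (j + 1 + 1) = (1 / 2) ^ j * (1 / 4) := by
    rw [pow_succ, pow_succ]
    ring
  rw [e1, e2, e3, e4]
  ring

/-- The condition of the crude noise step, in the convention of the level step. -/
lemma num_crude {n j : ℕ} (hn : 0 < n) (hj : 2 ≤ j) :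
    2 ^ (n + j + 8) * (2 * (Nn n j) ^ 2 + (n + j + 8)) + 1 ≤ 2 ^ (tK5 n (j - 1) / n + 1) := by
  obtain ⟨i, rfl⟩ : ∃ i, j = i + 1 := ⟨j - 1, by omega⟩
  have h := num_k5 hn i
  rw [Nat.add_sub_cancel, sq]
  rw [show n + (i + 1) + 8 = n + (i + 2) + 7 by ring]
  exact h

/-- All numerical hypotheses of a level step. -/
theorem num_step {n j : ℕ} (hn : 0 < n) (hj : 2 ≤ j) {r : ℝ} (hr0 : 0 < r) (hr1 : r ≤ 1 / 8) :
    let eps : ℝ := (1 / 2) ^ (j + 5)
    let β : ℝ := 1 + (1 / 2) ^ (j + 3)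
    let Lam : ℝ := (LamN n (j - 1) : ℝ)
    let T0 : ℕ := t0 n (j - 1)
    let k : ℕ := Nn n j / n
    let lam : ℝ := (1 / 2) ^ (n + j + 8)
    let l : ℝ := lamL n (j + 2)
    let lp : ℝ := lamL n (j + 1)
    let lpp : ℝ := lamL n j
    let γ : ℝ := (1 / 2) ^ n * l
    let N : ℕ := Nn n (j + 1)
    let Np : ℕ := Nn n j
    0 < l ∧ l ≤ lp ∧ lp ≤ lpp ∧ 0 < vL n j ∧ 0 < vL n (j + 1) ∧ 0 < Lam ∧ 0 < eps ∧ eps < 1 ∧
    1 ≤ β ∧ β ≤ 2 ∧ β * vL n j ≤ (1 - eps) ^ 3 * vL n (j + 1) ∧ eps * l ≤ Lam ∧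
    ((N : ℝ) + 1) ^ n * l ≤ eps * vL n (j + 1) ∧
    2 ^ (n + 1) * Lam ≤ eps ^ 2 * lpp * T0 ∧
    T0 * n ≤ Np ∧ k * n ≤ Np ∧ T0 ≤ k ∧ 0 < γ ∧ γ ≤ (1 - 2 * r) ^ n * l ∧ 0 ≤ lam ∧
    1 < (eps * l / Lam) ^ T0 * β ^ (k - T0) ∧
    lam + (2 ^ N / γ) ^ N * Real.exp (-(lam * ((eps * l / Lam) ^ T0 * β ^ (k - T0) - 1))) ≤
      2 * lam := by
  obtain ⟨i, rfl⟩ : ∃ i, j = i + 1 := ⟨j - 1, by omega⟩
  have hi : 1 ≤ i := by omega
  intro eps β Lam T0 k lam l lp lpp γ N Np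
  have hTi : i + 1 - 1 = i := by omega
  have hT0 : T0 = t0 n i := by simp only [T0, hTi]
  have hLam : Lam = (LamN n i : ℝ) := by simp only [Lam, hTi]
  have hl : l = lamU n (i + 2) := by
    simp only [l, lamL]
    congr 1
  have hlp : lp = lamU n (i + 1) := by
    simp only [lp, lamL]
    congr 1
  have hlpp : lpp = lamU n i := by
    simp only [lpp, lamL, hTi]
  have heps : eps = epsU (i + 2) := by
    simp only [eps, epsU]
  have hβ : β = betaU (i + 2) := by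
    simp only [β, betaU]
  have hlam : lam = lamR n i := by
    simp only [lam, lamR]
    congr 1
  have hk : k = kU n i := rfl
  have hN : N = Nn n (i + 2) := rfl
  have hγ : γ = gammaU n i := by
    simp only [γ, gammaU, hl]
  have hLam1 : (1 : ℝ) ≤ Lam := by
    rw [hLam]
    exact_mod_cast LamN_pos n i
  have hlpos : 0 < l := lamL_pos n _
  have hepspos : 0 < eps := by positivity
  have heps1 : eps ≤ 1 / 16 := by
    rw [heps]
    exact epsU_le _
  have hl1 : l ≤ 1 := by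
    rw [hl]
    unfold lamU
    exact pow_le_one₀ (by norm_num) (by norm_num)
  have hlong := chain_long hn hi
  have hT0k : T0 ≤ k := by
    rw [hT0, hk]
    omega
  have hM : (2 : ℝ) ^ K0 n i ≤ (eps * l / Lam) ^ T0 * β ^ (k - T0) := by
    have := two_pow_K0_le_MU hn hi
    unfold MU etaU at this
    rw [heps, hl, hLam, hT0, hβ, hk]
    exact this
  have hK0 : 1 ≤ K0 n i := by
    unfold K0
    omega
  refine ⟨hlpos, lamL_anti hn _, lamL_anti hn _, vL_pos hn _, vL_pos hn _, by linarith, hepspos,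
    by linarith, ?_, ?_, ?_, ?_, ?_, ?_, ?_, ?_, hT0k, ?_, ?_, ?_, ?_, ?_⟩
  · rw [hβ]
    exact one_le_betaU _
  · rw [hβ]
    exact betaU_le_two _
  · rw [heps, hβ]
    exact num_ratio hn (i + 1)
  · have : eps * l ≤ 1 := by nlinarith
    linarith
  · have := num_eps hn (i + 2)
    rw [heps, hl, hN]
    exact this
  · -- the count of hit sets
    have h := two_pow_div_tauU n i
    have hτ := tauU_pos n i
    rw [div_eq_iff hτ.ne'] at h
    have hL0 : (0 : ℝ) < LamN n i := by exact_mod_cast LamN_pos n i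
    rw [hLam, heps, hlpp, hT0]
    unfold tauU at h
    rw [pow_succ]
    field_simp at h
    nlinarith
  · rw [hT0, mul_comm]
    exact n_mul_t0_le hn hi
  · exact Nat.div_mul_le_self _ _
  · rw [hγ]
    unfold gammaU
    have := lamU_pos n (i + 2)
    positivity
  · have h2 : (1 : ℝ) / 2 ≤ 1 - 2 * r := by linarith
    rw [hγ, hl]
    unfold gammaU
    gcongr
  · positivity
  · have h2 : (2 : ℝ) ≤ 2 ^ K0 n i := by
      calc (2 : ℝ) = 2 ^ 1 := by norm_num
        _ ≤ 2 ^ K0 n i := pow_le_pow_right₀ (by norm_num) hK0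
    linarith
  · have := num_cost hn hi hM
    rw [← hlam, ← hN, ← hγ] at this
    linarith

end Vale.Agent.Lib.P034U
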