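import Mathlib
import Vale.Agent.Lib.P034U.Gain

/-!
The hit family, the gain at every state above it, the path to it and the amplification: the chain
mass on subsets of the target core is large.
-/

namespace Vale.Agent.Lib.P034U
open Finset
open Vale.Agent.Lib.P034
open scoped Classical

variable {X : Type*} [Fintype X] [DecidableEq X] {g : Finset X → ℝ}

/-- A trace of positive mass has size at most `n`. -/
lemma mA_card_le {n : ℕ} (hs : ∀ S : Finset X, S.card ≠ n → g S = 0) {r lp l : ℝ} {I A : Finset X}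
    (h : mA g r lp l I A ≠ 0) : A.card ≤ n := by
  unfold mA at h
  obtain ⟨S, hS, hne⟩ := Finset.exists_ne_zero_of_sum_ne_zero h
  have hgS : g S ≠ 0 := by
    intro h0
    apply hne
    unfold tm
    rw [h0, zero_mul]
  have hc : S.card = n := by
    by_contra hc
    exact hgS (hs S hc)
  rw [← hc, ← (Finset.mem_filter.mp hS).2.2]
  exact Finset.card_le_card Finset.inter_subset_left

/-- (d): the number of heavy sets. -/
lemma hit_card {n : ℕ} (hs : ∀ S : Finset X, S.card ≠ n → g S = 0) (hg : ∀ S, 0 ≤ g S)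
    {r lp l : ℝ} (hr : 0 ≤ r) {I : Finset X} (W : Finset (Finset X)) (HH : Finset (Finset X))
    {c : ℝ} (hHH : ∀ C ∈ HH, c ≤ ∑ A ∈ W.filter (fun A => C ⊆ A), mA g r lp l I A) :
    (HH.card : ℝ) * c ≤ 2 ^ n * ∑ A ∈ W, mA g r lp l I A := by
  have hnn : ∀ A, 0 ≤ mA g r lp l I A := fun A => mA_nonneg hg hr lp l I A
  have h1 : (HH.card : ℝ) * c ≤ ∑ C ∈ HH, ∑ A ∈ W.filter (fun A => C ⊆ A), mA g r lp l I A := by
    have := Finset.card_nsmul_le_sum HH _ c hHH
    rwa [nsmul_eq_mul] at this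
  refine h1.trans ?_
  have h2 : ∑ C ∈ HH, ∑ A ∈ W.filter (fun A => C ⊆ A), mA g r lp l I A =
      ∑ A ∈ W, ∑ C ∈ HH.filter (fun C => C ⊆ A), mA g r lp l I A := by
    simp only [Finset.sum_filter]
    rw [Finset.sum_comm]
  rw [h2, Finset.mul_sum]
  refine Finset.sum_le_sum (fun A _ => ?_)
  rw [Finset.sum_const, nsmul_eq_mul]
  by_cases h0 : mA g r lp l I A = 0
  · simp [h0]
  · refine mul_le_mul_of_nonneg_right ?_ (hnn A)
    have hA := mA_card_le hs h0
    have hc : (HH.filter (fun C => C ⊆ A)).card ≤ 2 ^ n := by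
      have hsub : HH.filter (fun C => C ⊆ A) ⊆ A.powerset := by
        intro C hC
        exact Finset.mem_powerset.mpr (Finset.mem_filter.mp hC).2
      calc _ ≤ A.powerset.card := Finset.card_le_card hsub
        _ = 2 ^ A.card := Finset.card_powerset A
        _ ≤ 2 ^ n := Nat.pow_le_pow_right (by norm_num) hA
    exact_mod_cast hc

/-- (e): the gain at a state above the hit family. -/
theorem gain_ge (hg : ∀ S, 0 ≤ g S) {r lpp lp l ε Vp Lam β τ : ℝ} (hr : 0 ≤ r) (hb1 : 2 * r ≤ 1)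
    (hlp : lp ≤ lpp) (hlpp : 0 < lpp) (hε0 : 0 < ε) (hε1 : ε ≤ 1) (hVp : 0 < Vp)
    (hLam : 0 < Lam) {I T J : Finset X} (hTI : T ⊆ I) (W : Finset (Finset X))
    (hW : ∀ A ∈ W, l ≤ mA g r lp l I A) (hWJ : ∀ A ∈ W, A ⊆ J)
    (hτ : τ = ε ^ 2 * lpp / (2 * Lam))
    (hV : vv g (2 * r) lpp lp T ≤ Vp) (hΛ : phiA g (3 * r) T ≤ Lam)
    (hlight : ∀ C, C ≠ ∅ → C ⊆ J \ T → lpp ≤ score g (2 * r) C T →
      ∑ A ∈ W.filter (fun A => C ⊆ A), mA g r lp l I A ≤ τ * ∑ A ∈ W, mA g r lp l I A)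
    (hβ2 : β ≤ 2) (hβ : β * Vp ≤ (1 - ε) * ((1 - ε) * ∑ A ∈ W, mA g r lp l I A)) :
    β ≤ ∑ B ∈ (J \ T).powerset, rho g r lpp lp l ε Vp Lam T B := by
  set v' := ∑ A ∈ W, mA g r lp l I A with hv'
  have hv0 : 0 ≤ v' := Finset.sum_nonneg (fun A _ => mA_nonneg hg hr lp l I A)
  set Cc := (J \ T).powerset.filter (fun C => C ≠ ∅ ∧ lpp ≤ score g (2 * r) C T) with hCc
  have hρ : ∀ B, 0 ≤ rho g r lpp lp l ε Vp Lam T B :=
    rho_nonneg hg hr hε0.le hε1 hVp hLam T
  by_cases hcase : 2 * Lam ≤ ε * (Cc.card : ℝ) * lpp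
  · -- many capping sets: the batch part alone
    have h1 : ∑ C ∈ Cc, ε * lpp / Lam ≤ ∑ C ∈ Cc, rho g r lpp lp l ε Vp Lam T C := by
      refine Finset.sum_le_sum (fun C hC => ?_)
      obtain ⟨hC1, hC2, hC3⟩ := Finset.mem_filter.mp hC
      have hd : Disjoint C T := by
        have : C ⊆ J \ T := Finset.mem_powerset.mp hC1
        rw [Finset.disjoint_left]
        intro z hz hzT
        exact (Finset.mem_sdiff.mp (this hz)).2 hzT
      refine le_trans ?_ (rho_ge_batch hg hr hε0.le hε1 hVp hLam hΛ hC2 hd)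
      refine div_le_div_of_nonneg_right (mul_le_mul_of_nonneg_left hC3 hε0.le) hLam.le
    have h2 : ∑ C ∈ Cc, rho g r lpp lp l ε Vp Lam T C ≤
        ∑ B ∈ (J \ T).powerset, rho g r lpp lp l ε Vp Lam T B :=
      Finset.sum_le_sum_of_subset_of_nonneg (Finset.filter_subset _ _) (fun B _ _ => hρ B)
    have h3 : (2 : ℝ) ≤ ∑ C ∈ Cc, ε * lpp / Lam := by
      rw [Finset.sum_const, nsmul_eq_mul, ← mul_div_assoc, le_div_iff₀ hLam]
      nlinarith
    linarith
  · -- few capping sets: the main part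
    push Not at hcase
    have hτ0 : 0 ≤ τ := by
      rw [hτ]
      positivity
    have hcap : ∑ C ∈ Cc, ∑ A ∈ W.filter (fun A => C ⊆ A), mA g r lp l I A ≤ ε * v' := by
      calc ∑ C ∈ Cc, ∑ A ∈ W.filter (fun A => C ⊆ A), mA g r lp l I A
          ≤ ∑ _C ∈ Cc, τ * v' := by
            refine Finset.sum_le_sum (fun C hC => ?_)
            obtain ⟨hC1, hC2, hC3⟩ := Finset.mem_filter.mp hC
            exact hlight C hC2 (Finset.mem_powerset.mp hC1) hC3
        _ = (Cc.card : ℝ) * (τ * v') := by rw [Finset.sum_const, nsmul_eq_mul]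
        _ ≤ ε * v' := by
            have e : (Cc.card : ℝ) * τ ≤ ε := by
              rw [hτ]
              have h4 : (Cc.card : ℝ) * (ε ^ 2 * lpp / (2 * Lam)) =
                  ε * (ε * (Cc.card : ℝ) * lpp) / (2 * Lam) := by ring
              rw [h4, div_le_iff₀ (by positivity)]
              nlinarith
            nlinarith
    have hnum := numerator_sub (lpp := lpp) hg hr hb1 hlp hTI W hW hWJ
    have hnum' : (1 - ε) * v' ≤ ∑ B ∈ (J \ T).powerset, hh g r lpp lp l T B := by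
      have : v' - ε * v' ≤ ∑ B ∈ (J \ T).powerset, hh g r lpp lp l T B := by
        refine le_trans ?_ hnum
        linarith
      linarith
    have hsum : ∑ B ∈ (J \ T).powerset, (1 - ε) * hh g r lpp lp l T B / Vp ≤
        ∑ B ∈ (J \ T).powerset, rho g r lpp lp l ε Vp Lam T B :=
      Finset.sum_le_sum (fun B _ => rho_ge_main hg hr hε0.le hε1 hVp hLam hV)
    refine le_trans ?_ hsum
    rw [← Finset.sum_div, ← Finset.mul_sum, le_div_iff₀ hVp]
    refine hβ.trans ?_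
    exact mul_le_mul_of_nonneg_left hnum' (by linarith)

/-- (f): the path through a family of traces. -/
lemma path_lower (hg : ∀ S, 0 ≤ g S) {n : ℕ} {r lpp lp l ε Vp Lam : ℝ} (hr : 0 ≤ r)
    (hε0 : 0 < ε) (hε1 : ε ≤ 1) (hVp : 0 < Vp) (hLam : 0 < Lam) {I : Finset X} {Np : ℕ}
    (hΛ : ∀ T ⊆ I, T.card ≤ Np → phiA g (3 * r) T ≤ Lam)
    (f : Finset X → Finset X) (H : Finset (Finset X)) (hfI : ∀ C ∈ H, f C ⊆ I)
    (hfc : ∀ C ∈ H, (f C).card ≤ n) (hfm : ∀ C ∈ H, l ≤ mA g r lp l I (f C))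
    (hH : H.card * n ≤ Np) (hη0 : 0 ≤ ε * l / Lam) :
    ∃ t, t ≤ H.card ∧ (ε * l / Lam) ^ t ≤ gW (rho g r lpp lp l ε Vp Lam) t (H.biUnion f) ∧
      (H.biUnion f).card ≤ H.card * n := by
  induction H using Finset.induction_on with
  | empty =>
    refine ⟨0, le_rfl, ?_, by simp⟩
    simp [gW]
  | insert C H hC ih =>
    rw [Finset.card_insert_of_notMem hC] at hH ⊢
    obtain ⟨t, ht, hw, hcard⟩ := ih (fun C' h => hfI C' (Finset.mem_insert_of_mem h))
      (fun C' h => hfc C' (Finset.mem_insert_of_mem h))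
      (fun C' h => hfm C' (Finset.mem_insert_of_mem h))
      (by nlinarith)
    have hcard' : (insert C H).biUnion f = H.biUnion f ∪ f C := by
      rw [Finset.biUnion_insert, Finset.union_comm]
    have hcard2 : (H.biUnion f ∪ f C).card ≤ (H.card + 1) * n := by
      have := Finset.card_union_le (H.biUnion f) (f C)
      have h2 := hfc C (Finset.mem_insert_self _ _)
      nlinarith
    rw [hcard']
    set T := H.biUnion f with hT
    have hTI : T ⊆ I := by
      intro z hz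
      obtain ⟨C', hC', hzC'⟩ := Finset.mem_biUnion.mp hz
      exact hfI C' (Finset.mem_insert_of_mem hC') hzC'
    by_cases hB : f C \ T = ∅
    · have hsub : f C ⊆ T := Finset.sdiff_eq_empty_iff_subset.mp hB
      have e : T ∪ f C = T := Finset.union_eq_left.mpr hsub
      rw [e]
      exact ⟨t, by omega, hw, by rw [e] at hcard2; exact hcard2.trans le_rfl⟩
    · refine ⟨t + 1, by omega, ?_, hcard2⟩
      have hρ := rho_nonneg (lpp := lpp) (lp := lp) (l := l) hg hr hε0.le hε1 hVp hLam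
      have hstep := gW_succ_ge hρ t T (f C \ T)
      rw [Finset.union_sdiff_self_eq_union] at hstep
      refine le_trans ?_ hstep
      rw [pow_succ]
      have hd : Disjoint (f C \ T) T := Finset.sdiff_disjoint
      have hTc : T.card ≤ Np := by
        calc T.card ≤ H.card * n := hcard
          _ ≤ (H.card + 1) * n := Nat.mul_le_mul_right _ (Nat.le_succ _)
          _ ≤ Np := hH
      have h1 := rho_ge_batch (lpp := lpp) (lp := lp) (l := l) hg hr hε0.le hε1 hVp hLam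
        (hΛ T hTI hTc) hB hd
      have h2 : l ≤ score g (2 * r) (f C \ T) T :=
        (hfm C (Finset.mem_insert_self _ _)).trans (mA_le_score hg hr lp l hTI)
      have h3 : ε * l / Lam ≤ rho g r lpp lp l ε Vp Lam T (f C \ T) :=
        le_trans (div_le_div_of_nonneg_right (mul_le_mul_of_nonneg_left h2 hε0.le) hLam.le) h1
      exact mul_le_mul hw h3 hη0 (gW_nonneg hρ t T)

/-- (d)-(g): the chain mass on the subsets of the target core. -/
theorem target_mass (hg : ∀ S, 0 ≤ g S) {n : ℕ} (hn : 0 < n)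
    (hs : ∀ S : Finset X, S.card ≠ n → g S = 0) {r lpp lp l ε Vp Lam β τ : ℝ} (hr : 0 ≤ r)
    (hb1 : 2 * r ≤ 1) (hl : 0 < l) (hlp : lp ≤ lpp) (hlpp : 0 < lpp) (hε0 : 0 < ε) (hε1 : ε ≤ 1)
    (hVp : 0 < Vp) (hLam : 0 < Lam) {I : Finset X} {Np k t0 : ℕ}
    (hT : ∀ T ⊆ I, T.card ≤ Np → vv g (2 * r) lpp lp T ≤ Vp ∧ phiA g (3 * r) T ≤ Lam)
    (W : Finset (Finset X)) (hWdef : W = I.powerset.filter (fun A => l ≤ mA g r lp l I A))
    (J : Finset X) (hJ : J = W.biUnion id)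
    (hv0 : 0 < ∑ A ∈ W, mA g r lp l I A)
    (hτ : τ = ε ^ 2 * lpp / (2 * Lam))
    (ht0 : (2 : ℝ) ^ n ≤ τ * t0) (ht0n : t0 * n ≤ Np) (hkn : k * n ≤ Np) (ht0k : t0 ≤ k)
    (hβ1 : 1 ≤ β) (hβ2 : β ≤ 2)
    (hβ : β * Vp ≤ (1 - ε) * ((1 - ε) * ∑ A ∈ W, mA g r lp l I A))
    (hη : ε * l / Lam ≤ 1) :
    (ε * l / Lam) ^ t0 * β ^ (k - t0) ≤
      ∑ T ∈ J.powerset, gW (rho g r lpp lp l ε Vp Lam) k T := by
  set v' := ∑ A ∈ W, mA g r lp l I A with hv'
  have hτ0 : 0 < τ := by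
    rw [hτ]
    positivity
  have hWm : ∀ A ∈ W, A ⊆ I ∧ l ≤ mA g r lp l I A := by
    intro A hA
    rw [hWdef, Finset.mem_filter, Finset.mem_powerset] at hA
    exact hA
  have hWJ : ∀ A ∈ W, A ⊆ J := by
    intro A hA z hz
    rw [hJ]
    exact Finset.mem_biUnion.mpr ⟨A, hA, hz⟩
  have hJI : J ⊆ I := by
    intro z hz
    rw [hJ] at hz
    obtain ⟨A, hA, hzA⟩ := Finset.mem_biUnion.mp hz
    exact (hWm A hA).1 hzA
  -- the hit family
  set HH : Finset (Finset X) := J.powerset.filter (fun C => C ≠ ∅ ∧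
    τ * v' ≤ ∑ A ∈ W.filter (fun A => C ⊆ A), mA g r lp l I A) with hHH
  have hHHm : ∀ C ∈ HH, τ * v' ≤ ∑ A ∈ W.filter (fun A => C ⊆ A), mA g r lp l I A := by
    intro C hC
    exact (Finset.mem_filter.mp hC).2.2
  have hcardHH : HH.card ≤ t0 := by
    have h1 := hit_card hs hg hr W HH hHHm
    have h2 : (HH.card : ℝ) * τ ≤ 2 ^ n := by
      have : (HH.card : ℝ) * τ * v' ≤ 2 ^ n * v' := by linarith
      exact le_of_mul_le_mul_right this hv0
    have h3 : (HH.card : ℝ) * τ ≤ (t0 : ℝ) * τ := by linarith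
    have h4 := le_of_mul_le_mul_right h3 hτ0
    exact_mod_cast h4
  have hex : ∀ C, ∃ A, C ∈ HH → (A ∈ W ∧ C ⊆ A) := by
    intro C
    by_cases hC : C ∈ HH
    · have hpos : 0 < ∑ A ∈ W.filter (fun A => C ⊆ A), mA g r lp l I A :=
        lt_of_lt_of_le (mul_pos hτ0 hv0) (hHHm C hC)
      obtain ⟨A, hA, _⟩ := Finset.exists_ne_zero_of_sum_ne_zero hpos.ne'
      obtain ⟨hA1, hA2⟩ := Finset.mem_filter.mp hA
      exact ⟨A, fun _ => ⟨hA1, hA2⟩⟩
    · exact ⟨∅, fun h => absurd h hC⟩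
  choose f hf using hex
  set Ts := HH.biUnion f with hTs
  have hTsJ : Ts ⊆ J := by
    intro z hz
    obtain ⟨C, hC, hzC⟩ := Finset.mem_biUnion.mp hz
    exact hWJ _ (hf C hC).1 hzC
  have hHHn : HH.card * n ≤ Np := (Nat.mul_le_mul_right _ hcardHH).trans ht0n
  have hη0 : 0 ≤ ε * l / Lam := by positivity
  have hfc : ∀ C ∈ HH, (f C).card ≤ n := by
    intro C hC
    have h1 := (hWm _ (hf C hC).1).2
    exact mA_card_le hs (lt_of_lt_of_le hl h1).ne'
  obtain ⟨t1, ht1, hw1, _⟩ := path_lower (lpp := lpp) (Vp := Vp) hg hr hε0 hε1 hVp hLam (I := I)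
    (Np := Np) (fun T h1 h2 => (hT T h1 h2).2) f HH
    (fun C hC => (hWm _ (hf C hC).1).1) hfc (fun C hC => (hWm _ (hf C hC).1).2) hHHn hη0
  -- the family above the hit family
  set Tt : Finset (Finset X) := J.powerset.filter (fun T => Ts ⊆ T) with hTt
  have hρ := rho_nonneg (lpp := lpp) (lp := lp) (l := l) hg hr hε0.le hε1 hVp hLam
  have hcl : ∀ T ∈ Tt, ∀ B ⊆ J \ T, T ∪ B ∈ Tt := by
    intro T hT' B hB
    obtain ⟨h1, h2⟩ := Finset.mem_filter.mp hT'
    rw [Finset.mem_powerset] at h1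
    rw [hTt, Finset.mem_filter, Finset.mem_powerset]
    refine ⟨Finset.union_subset h1 (hB.trans Finset.sdiff_subset), h2.trans Finset.subset_union_left⟩
  have ht1k : t1 ≤ k := by omega
  have hgain : ∀ t, t1 ≤ t → t < t1 + (k - t1) → ∀ T ∈ Tt,
      gW (rho g r lpp lp l ε Vp Lam) t T ≠ 0 →
      β ≤ ∑ B ∈ (J \ T).powerset, rho g r lpp lp l ε Vp Lam T B := by
    intro t _ htk T hT' hne
    obtain ⟨h1, h2⟩ := Finset.mem_filter.mp hT'
    rw [Finset.mem_powerset] at h1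
    have hTc : T.card ≤ Np := by
      have hsup := gW_support (n := n) (fun T B h => rho_card hs h) t T hne
      have : t * n ≤ k * n := Nat.mul_le_mul_right _ (by omega)
      omega
    obtain ⟨hV, hΛ⟩ := hT T (h1.trans hJI) hTc
    refine gain_ge hg hr hb1 hlp hlpp hε0 hε1 hVp hLam (h1.trans hJI) W
      (fun A hA => (hWm A hA).2) hWJ hτ hV hΛ ?_ hβ2 hβ
    intro C hne' hCsub hth
    by_contra hc
    push Not at hc
    have hCJ : C ⊆ J := hCsub.trans Finset.sdiff_subset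
    have hCm : C ∈ HH := by
      rw [hHH, Finset.mem_filter, Finset.mem_powerset]
      exact ⟨hCJ, hne', hc.le⟩
    obtain ⟨z, hz⟩ := Finset.nonempty_iff_ne_empty.mpr hne'
    have hzT : z ∈ T := h2 (Finset.mem_biUnion.mpr ⟨C, hCm, (hf C hCm).2 hz⟩)
    exact (Finset.mem_sdiff.mp (hCsub hz)).2 hzT
  have hiter := gW_gain_iter hρ Tt J hcl (β := β) (by linarith) t1 (k - t1) hgain
  have hTsmem : Ts ∈ Tt := by
    rw [hTt, Finset.mem_filter, Finset.mem_powerset]
    exact ⟨hTsJ, Finset.Subset.refl _⟩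
  have h1 : gW (rho g r lpp lp l ε Vp Lam) t1 Ts ≤ ∑ T ∈ Tt, gW (rho g r lpp lp l ε Vp Lam) t1 T :=
    Finset.single_le_sum (f := fun T => gW (rho g r lpp lp l ε Vp Lam) t1 T)
      (fun T _ => gW_nonneg hρ t1 T) hTsmem
  have h2 : t1 + (k - t1) = k := by omega
  rw [h2] at hiter
  have h3 : ∑ T ∈ Tt, gW (rho g r lpp lp l ε Vp Lam) k T ≤
      ∑ T ∈ J.powerset, gW (rho g r lpp lp l ε Vp Lam) k T :=
    Finset.sum_le_sum_of_subset_of_nonneg (Finset.filter_subset _ _)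
      (fun T _ _ => gW_nonneg hρ k T)
  have h4 : (ε * l / Lam) ^ t0 ≤ (ε * l / Lam) ^ t1 :=
    pow_le_pow_of_le_one hη0 hη (by omega)
  have h5 : β ^ (k - t0) ≤ β ^ (k - t1) := pow_le_pow_right₀ hβ1 (by omega)
  have hβ0 : 0 ≤ β ^ (k - t1) := by positivity
  calc (ε * l / Lam) ^ t0 * β ^ (k - t0)
      ≤ (ε * l / Lam) ^ t1 * β ^ (k - t1) := mul_le_mul h4 h5 (by positivity) (by positivity)
    _ ≤ gW (rho g r lpp lp l ε Vp Lam) t1 Ts * β ^ (k - t1) :=
        mul_le_mul_of_nonneg_right hw1 hβ0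
    _ ≤ (∑ T ∈ Tt, gW (rho g r lpp lp l ε Vp Lam) t1 T) * β ^ (k - t1) :=
        mul_le_mul_of_nonneg_right h1 hβ0
    _ = β ^ (k - t1) * ∑ T ∈ Tt, gW (rho g r lpp lp l ε Vp Lam) t1 T := by ring
    _ ≤ ∑ T ∈ Tt, gW (rho g r lpp lp l ε Vp Lam) k T := hiter
    _ ≤ _ := h3

end Vale.Agent.Lib.P034U
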